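import Vale.Agent.P180.R2.H589.Dim3

set_option linter.unusedSectionVars false

/-!
P180: polynomial identities and spanning sets, abstract version.
-/

namespace Vale.Agent.P180.R2.H589

open Finset Polynomial Module
open Vale.Agent.P180

namespace Abs

variable {k A : Type*} [Field k] [Ring A] [Algebra k A]

/-- The coefficients of the second factor. -/
theorem good_coeff {l m : ℕ} {Z : Subalgebra k A} {J : Submodule k A} {E b : A} {P0 P1 : A[X]}
    (h0 : P0.Monic) (h0d : P0.natDegree = l) (h1d : P1.natDegree ≤ m)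
    (hZ : ∀ r, P0.coeff r ∈ Z) (hZE : ∀ z ∈ Z, z * E = E * z)
    (hJc : ∀ j ∈ J, ∀ x, j * x = x * j) (hbc : ∀ x, x * b = b * x)
    (hE : ∀ r, E * (P0 * P1).coeff r = (P0 * P1).coeff r * E)
    (hJ : ∀ r, ∃ c : k, b * (P0 * P1).coeff r - c • b ∈ J) (r : ℕ) :
    Good Z J (b * E) ((reflect m P1).coeff r) := by
  have hP : reflect (l + m) (P0 * P1) = reflect l P0 * reflect m P1 :=
    reflect_mul P0 P1 h0d.le h1d
  induction r using Nat.strong_induction_on with
  | _ r ih =>
    have h3 := congrArg (fun p => p.coeff r) hP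
    simp only [coeff_mul (reflect l P0)] at h3
    have h4 : ((0, r) : ℕ × ℕ) ∈ antidiagonal r := by simp
    rw [← Finset.add_sum_erase _ _ h4] at h3
    have h5 : (reflect l P0).coeff 0 = 1 := by
      rw [coeff_reflect, revAt_le (Nat.zero_le l), Nat.sub_zero]
      have := h0.coeff_natDegree
      rwa [h0d] at this
    simp only [h5, one_mul] at h3
    have h6 : (reflect m P1).coeff r = (reflect (l + m) (P0 * P1)).coeff r -
        ∑ x ∈ (antidiagonal r).erase (0, r), (reflect l P0).coeff x.1 *
          (reflect m P1).coeff x.2 := by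
      rw [h3]; abel
    rw [h6]
    apply Good.sub
    · rw [coeff_reflect]
      obtain ⟨c, hc⟩ := hJ (revAt (l + m) r)
      refine ⟨algebraMap k _ c, Subalgebra.algebraMap_mem _ _, ?_⟩
      have h7 : b * E * (P0 * P1).coeff (revAt (l + m) r) - b * E * algebraMap k _ c
          = (b * (P0 * P1).coeff (revAt (l + m) r) - c • b) * E := by
        have h8 := hE (revAt (l + m) r)
        rw [sub_mul, mul_assoc, h8, ← mul_assoc, Algebra.algebraMap_eq_smul_one, mul_smul_comm,
          mul_one, smul_mul_assoc]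
      rw [h7]
      exact Submodule.mul_mem_mul hc trivial
    · apply Good.sum
      intro x hx
      rw [Finset.mem_erase, HasAntidiagonal.mem_antidiagonal] at hx
      have hlt : x.2 < r := by
        rcases Nat.eq_zero_or_pos x.1 with h | h
        · exfalso
          apply hx.1
          ext
          · exact h
          · show x.2 = r
            omega
        · omega
      apply Good.mul_left hJc _ _ (ih _ hlt)
      · rw [coeff_reflect]
        exact hZ _
      · rw [coeff_reflect]
        rw [← mul_assoc, hbc, mul_assoc, hZE _ (hZ _), ← mul_assoc]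

/-- The polynomial identity. -/
theorem exists_identity [Nontrivial A] {l m : ℕ} {Z : Subalgebra k A} {J : Submodule k A} {E b : A}
    {P0 P1 : A[X]}
    (h0 : P0.Monic) (h0d : P0.natDegree = l) (h1d : P1.natDegree ≤ m)
    (hZ : ∀ r, P0.coeff r ∈ Z) (hZE : ∀ z ∈ Z, z * E = E * z)
    (hJc : ∀ j ∈ J, ∀ x, j * x = x * j) (hbc : ∀ x, x * b = b * x)
    (hE : ∀ r, E * (P0 * P1).coeff r = (P0 * P1).coeff r * E)
    (hJ : ∀ r, ∃ c : k, b * (P0 * P1).coeff r - c • b ∈ J)
    (hbb : b * b = b) (hEE : E * E = E) (h1 : P1.coeff m = 1) {x : A}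
    (hx : ∑ i ∈ range (m + 1), P1.coeff i * x ^ i = 0)
    (hZx : ∀ z ∈ Z, z * x = x * z) (hEx : E * x = x * E)
    {g : ℕ} (hg : J ^ g = ⊥) :
    ∃ a : ℕ → A, (∀ i, a i ∈ Z) ∧
      b * E * x ^ (g * m) = - ∑ i ∈ range (g * m), b * E * (a i * x ^ i) := by
  classical
  -- the coefficients
  have h1' := fun i => good_coeff h0 h0d h1d hZ hZE hJc hbc hE hJ (m - i)
  have h2 : ∀ i : Fin m, ∃ c : Z, b * E * P1.coeff i - b * E * c ∈
      J * (⊤ : Submodule k A) := by
    intro i
    obtain ⟨c, hc, h3⟩ := h1' i
    refine ⟨⟨c, hc⟩, ?_⟩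
    rw [coeff_reflect, revAt_le (Nat.sub_le _ _), Nat.sub_sub_self i.2.le] at h3
    exact h3
  choose c hc using h2
  -- the polynomial
  set q : (Z)[X] := X ^ m + ∑ i : Fin m, C (c i) * X ^ (i : ℕ) with hq
  have hdeg : (∑ i : Fin m, C (c i) * X ^ (i : ℕ) : (Z)[X]).degree < m :=
    degree_sum_fin_lt _
  have hmon : q.Monic := monic_X_pow_add hdeg
  have hnt : Nontrivial Z := ⟨⟨0, 1, fun h => by
    have h' := congrArg (fun z : Z => (z : A)) h
    exact zero_ne_one h'⟩⟩
  have hnat : q.natDegree = m := by
    rw [hq, natDegree_add_eq_left_of_degree_lt, natDegree_X_pow]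
    rw [degree_X_pow]
    exact hdeg
  have hcL : ∀ a : Z, Commute ((Z.val : Z →+* A) a) x := fun a => hZx _ a.2
  set ev := eval₂RingHom' (Z.val : Z →+* A) x hcL with hev
  have hevX : ev X = x := by simp [hev]
  have hevC : ∀ a : Z, ev (C a) = a := by
    intro a
    simp [hev]
  -- `b E q(x)` is in the nilpotent ideal
  have h5 : b * E * ev q ∈ J * (⊤ : Submodule k A) := by
    have h6 : b * E * ev q = - ∑ i : Fin m, (b * E * P1.coeff i - b * E * c i) *
        x ^ (i : ℕ) := by
      have h7 := hx
      rw [sum_range_succ, h1, one_mul, ← Fin.sum_univ_eq_sum_range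
        (fun i => P1.coeff i * x ^ i)] at h7
      have h9 : ev q = x ^ m + ∑ i : Fin m, (c i : A) * x ^ (i : ℕ) := by
        rw [hq, map_add, map_pow, hevX, map_sum]
        congr 1
        apply Finset.sum_congr rfl
        intro i _
        rw [map_mul, hevC, map_pow, hevX]
      have h10 : ev q = ∑ i : Fin m, (c i : A) * x ^ (i : ℕ) -
          ∑ i : Fin m, P1.coeff i * x ^ (i : ℕ) := by
        rw [h9, ← sub_eq_zero]
        rw [← h7]
        abel
      rw [h10, ← Finset.sum_sub_distrib, Finset.mul_sum, ← Finset.sum_neg_distrib]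
      apply Finset.sum_congr rfl
      intro i _
      noncomm_ring
    rw [h6]
    apply Submodule.neg_mem
    apply Submodule.sum_mem
    intro i _
    exact (mul_mem_JT hJc (hc i) _).2
  have h6 := pow_eq_zero_of_mem_JT hJc hg h5
  -- commutation
  have hEev : ∀ p : (Z)[X], E * ev p = ev p * E := by
    intro p
    induction p using Polynomial.induction_on' with
    | add p q hp hq => rw [map_add, mul_add, add_mul, hp, hq]
    | monomial i a =>
      rw [← C_mul_X_pow_eq_monomial, map_mul, map_pow, hevX, hevC]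
      have e1 : E * (a : A) = a * E := (hZE _ a.2).symm
      have e2 : Commute E (x ^ i) := Commute.pow_right hEx i
      rw [← mul_assoc, e1, mul_assoc, e2.eq, ← mul_assoc]
  have hbE : Commute (b * E) (ev q) := by
    unfold Commute SemiconjBy
    rw [mul_assoc, hEev, ← mul_assoc, ← hbc, mul_assoc]
  have hbEE : IsIdempotentElem (b * E) := by
    unfold IsIdempotentElem
    rw [mul_assoc, ← mul_assoc E, hbc E, mul_assoc b E E, hEE, ← mul_assoc, hbb]
  rw [hbE.mul_pow, ← map_pow] at h6
  rcases Nat.eq_zero_or_pos g with h0 | hpos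
  · -- `g = 0`: everything is zero
    subst h0
    have h7 : b * E = 0 := by
      have : (1 : A) ∈ (⊥ : Submodule k A) := by
        rw [← hg, pow_zero]; exact Submodule.one_le.1 le_rfl
      have h8 : (1 : A) = 0 := (Submodule.mem_bot k).1 this
      rw [← mul_one (b * E), h8, mul_zero]
    exact ⟨fun _ => 0, fun _ => Z.zero_mem, by rw [h7]; simp⟩
  rw [hbEE.pow_eq hpos.ne'] at h6
  have hmon2 : (q ^ g).Monic := hmon.pow g
  have hnat2 : (q ^ g).natDegree = g * m := by rw [hmon.natDegree_pow, hnat]
  have h7 := hmon2.as_sum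
  rw [hnat2] at h7
  rw [h7, map_add, map_pow, hevX, map_sum] at h6
  refine ⟨fun i => ((q ^ g).coeff i : Z), fun i => ((q ^ g).coeff i).2, ?_⟩
  rw [mul_add] at h6
  rw [eq_neg_iff_add_eq_zero]
  rw [← h6]
  congr 1
  rw [Finset.mul_sum]
  apply Finset.sum_congr rfl
  intro i _
  rw [map_mul, hevC, map_pow, hevX]

/-- An identity for `x = y ^ 2` gives one for `y`. -/
theorem identity_sq {Z : Subalgebra k A} {e y : A} {N : ℕ}
    (h : ∃ a : ℕ → A, (∀ i, a i ∈ Z) ∧
      e * (y * y) ^ N = - ∑ i ∈ range N, e * (a i * (y * y) ^ i)) :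
    ∃ a : ℕ → A, (∀ i, a i ∈ Z) ∧
      e * y ^ (2 * N) = - ∑ i ∈ range (2 * N), e * (a i * y ^ i) := by
  classical
  obtain ⟨a, ha, h⟩ := h
  refine ⟨fun i => if i % 2 = 0 then a (i / 2) else 0, ?_, ?_⟩
  · intro i
    dsimp only
    split_ifs
    · exact ha _
    · exact Z.zero_mem
  · rw [pow_mul, pow_two, h]
    congr 1
    have : ∀ M : ℕ, ∑ i ∈ range M, e * (a i * (y * y) ^ i) =
        ∑ i ∈ range (2 * M), e * ((if i % 2 = 0 then a (i / 2) else 0) * y ^ i) := by
      intro M
      induction M with
      | zero => simp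
      | succ M ih =>
        rw [sum_range_succ, ih, show 2 * (M + 1) = 2 * M + 1 + 1 from rfl, sum_range_succ,
          sum_range_succ]
        have e1 : (2 * M) % 2 = 0 := by omega
        have e2 : ¬ (2 * M + 1) % 2 = 0 := by omega
        have e3 : 2 * M / 2 = M := by omega
        rw [if_pos e1, if_neg e2, e3, zero_mul, mul_zero, add_zero, pow_mul, pow_two]
    exact this N

/-- The spaces spanned by the ordered monomials in the first `r` elements. -/
noncomputable def Vr (N : ℕ) (e : A) (Z : Subalgebra k A) (y : ℕ → A) : ℕ → Submodule k A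
  | 0 => Submodule.map (LinearMap.mulLeft k e) (Subalgebra.toSubmodule Z)
  | r + 1 => (range N).sup fun i =>
      Submodule.map (LinearMap.mulRight k (y r ^ i)) (Vr N e Z y r)

section

variable {m N : ℕ} {e : A} {Z : Subalgebra k A} {y : ℕ → A}

theorem mem_Vr_succ {r i : ℕ} (hi : i < N) {v : A}
    (hv : v ∈ Vr N e Z y r) : v * y r ^ i ∈ Vr N e Z y (r + 1) := by
  rw [Vr]
  have h1 : Submodule.map (LinearMap.mulRight k (y r ^ i)) (Vr N e Z y r) ≤
      (range N).sup fun i =>
        Submodule.map (LinearMap.mulRight k (y r ^ i)) (Vr N e Z y r) :=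
    Finset.le_sup (f := fun i =>
      Submodule.map (LinearMap.mulRight k (y r ^ i)) (Vr N e Z y r))
      (Finset.mem_range.2 hi)
  exact h1 ⟨v, hv, rfl⟩

theorem Vr_succ_le {r : ℕ} {W : Submodule k A}
    (h : ∀ i < N, ∀ v ∈ Vr N e Z y r, v * y r ^ i ∈ W) :
    Vr N e Z y (r + 1) ≤ W := by
  rw [Vr]
  apply Finset.sup_le
  intro i hi
  rw [Submodule.map_le_iff_le_comap]
  intro v hv
  exact h i (Finset.mem_range.1 hi) v hv

theorem finrank_Vr [FiniteDimensional k A] (r : ℕ) :
    finrank k (Vr N e Z y r) ≤ finrank k (Vr N e Z y 0) * N ^ r := by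
  induction r with
  | zero => simp
  | succ r ih =>
    set d := finrank k (Vr N e Z y 0) with hd
    rw [Vr]
    refine (finrank_finset_sup_le_mul _ _ (d * N ^ r) ?_).trans ?_
    · intro i _
      exact (Submodule.finrank_map_le _ _).trans ih
    · rw [Finset.card_range, pow_succ]
      exact le_of_eq (by ring)

theorem pow_anti {v a b : A} (h : a * b = - (b * a)) (i : ℕ) :
    v * a ^ i * b = v * b * a ^ i ∨ v * a ^ i * b = - (v * b * a ^ i) := by
  have h1 : a ^ i * b = b * a ^ i ∨ a ^ i * b = - (b * a ^ i) := by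
    induction i with
    | zero => left; simp
    | succ i ih =>
      have e : a ^ (i + 1) * b = - (a ^ i * b * a) := by
        rw [pow_succ, mul_assoc, h, mul_neg, mul_assoc]
      rcases ih with ih | ih
      · right
        rw [e, ih, mul_assoc, ← pow_succ]
      · left
        rw [e, ih, neg_mul, neg_neg, mul_assoc, ← pow_succ]
  rcases h1 with h1 | h1
  · left
    rw [mul_assoc, h1, ← mul_assoc]
  · right
    rw [mul_assoc, h1, mul_neg, ← mul_assoc]

/-- Properties of the spaces. -/
theorem Vr_props (hee : e * e = e) (heZ : ∀ z ∈ Z, z * e = e * z)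
    (hanti : ∀ r s, s < r → r < m → y r * y s = - (y s * y r))
    (hZL : ∀ r < m, ∀ z ∈ Z, z * y r = y r * z)
    (heL : ∀ r < m, e * y r = y r * e)
    (hid : ∀ r < m, ∃ a : ℕ → A, (∀ i, a i ∈ Z) ∧
      e * y r ^ N = - ∑ i ∈ range N, e * (a i * y r ^ i)) :
    ∀ r ≤ m, (∀ v ∈ Vr N e Z y r, v * e = v) ∧
      (∀ v ∈ Vr N e Z y r, ∀ z ∈ Z, v * z ∈ Vr N e Z y r) ∧
      (∀ s < r, ∀ v ∈ Vr N e Z y r, v * y s ∈ Vr N e Z y r) := by
  intro r
  induction r with
  | zero =>
    intro _
    refine ⟨?_, ?_, fun s hs => absurd hs (Nat.not_lt_zero s)⟩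
    · rintro v ⟨z, hz, rfl⟩
      show e * z * e = e * z
      rw [mul_assoc, heZ z hz, ← mul_assoc, hee]
    · rintro v ⟨z, hz, rfl⟩ z' hz'
      refine ⟨z * z', Z.mul_mem hz hz', ?_⟩
      show e * (z * z') = e * z * z'
      rw [mul_assoc]
  | succ r ih =>
    intro hr
    obtain ⟨h1, h2, h3⟩ := ih (by omega)
    have heLp : ∀ i, e * y r ^ i = y r ^ i * e := fun i =>
      (Commute.pow_right (heL r (by omega)) i : Commute e _).eq
    have hZLp : ∀ i, ∀ z ∈ Z, z * y r ^ i = y r ^ i * z := fun i z hz =>
      (Commute.pow_right (hZL r (by omega) z hz) i : Commute z _).eq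
    refine ⟨?_, ?_, ?_⟩
    · have : Vr N e Z y (r + 1) ≤ LinearMap.ker (LinearMap.mulRight k e - LinearMap.id) := by
        apply Vr_succ_le
        intro i _ v hv
        rw [LinearMap.mem_ker, LinearMap.sub_apply, LinearMap.mulRight_apply, LinearMap.id_apply,
          sub_eq_zero, mul_assoc, ← heLp, ← mul_assoc, h1 v hv]
      intro v hv
      have := this hv
      rwa [LinearMap.mem_ker, LinearMap.sub_apply, LinearMap.mulRight_apply, LinearMap.id_apply,
          sub_eq_zero] at this
    · intro v hv z hz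
      have : Vr N e Z y (r + 1) ≤ Submodule.comap (LinearMap.mulRight k z)
          (Vr N e Z y (r + 1)) := by
        apply Vr_succ_le
        intro i hi v hv
        show v * y r ^ i * z ∈ Vr N e Z y (r + 1)
        rw [mul_assoc, ← hZLp i z hz, ← mul_assoc]
        exact mem_Vr_succ hi (h2 v hv z hz)
      exact this hv
    · intro s hs v hv
      have : Vr N e Z y (r + 1) ≤ Submodule.comap (LinearMap.mulRight k (y s))
          (Vr N e Z y (r + 1)) := by
        apply Vr_succ_le
        intro i hi v hv
        show v * y r ^ i * y s ∈ Vr N e Z y (r + 1)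
        rcases Nat.lt_or_ge s r with h | h
        · have hmem := mem_Vr_succ (k := k) hi (h3 s h v hv)
          rcases pow_anti (v := v) (hanti r s h (by omega)) i with h4 | h4
          · rw [h4]; exact hmem
          · rw [h4]; exact Submodule.neg_mem _ hmem
        · have hsr : s = r := by omega
          subst hsr
          rw [mul_assoc, ← pow_succ]
          rcases Nat.lt_or_ge (i + 1) N with h5 | h5
          · exact mem_Vr_succ h5 hv
          · have h6 : i + 1 = N := by omega
            obtain ⟨a, ha, h7⟩ := hid s (by omega)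
            have h8 : v * y s ^ (i + 1) =
                - ∑ i ∈ range N, (v * a i) * y s ^ i := by
              calc v * y s ^ (i + 1) = v * (e * y s ^ N) := by
                    rw [h6, ← mul_assoc, h1 v hv]
                _ = _ := by
                    rw [h7, mul_neg, Finset.mul_sum]
                    congr 1
                    apply Finset.sum_congr rfl
                    intro i _
                    rw [← mul_assoc, h1 v hv, mul_assoc]
            rw [h8]
            apply Submodule.neg_mem
            apply Submodule.sum_mem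
            intro i hi
            exact mem_Vr_succ (Finset.mem_range.1 hi) (h2 v hv _ (ha i))
      exact this hv

theorem e_mem_Vr (hN : 0 < N) : ∀ r, e ∈ Vr N e Z y r := by
  intro r
  induction r with
  | zero => exact ⟨1, Z.one_mem, by simp⟩
  | succ r ih =>
    have := mem_Vr_succ (k := k) (e := e) (Z := Z) (y := y) hN ih
    rwa [pow_zero, mul_one] at this

end

end Abs

end Vale.Agent.P180.R2.H589
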