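import Vale.Agent.P180.R2.H589.Spin.Top
import Vale.Agent.P180.R2.H589.Spin.Abs
import Vale.Agent.P180.R2.H589.Par

set_option linter.unusedSectionVars false

/-!
P180: Jucys-Murphy elements of the twisted group algebra.
-/

namespace Vale.Agent.P180.R2.H589

open Equiv Finset Polynomial Module
open Vale.Agent.P180

namespace SpinStr

section Gen

variable {α : Type} [Fintype α] [DecidableEq α] {Γ : Type} [Group Γ] [Fintype Γ] [DecidableEq Γ]
  (S : SpinStr α Γ) {k : Type*} [Field k]

/-- The projection onto the part on which `z` acts as `-1`. -/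
noncomputable def em (k : Type*) [Field k] : MonoidAlgebra k Γ := (2 : k)⁻¹ • (1 - gp k S.z)

theorem gp_z_comm (x : MonoidAlgebra k Γ) : gp k S.z * x = x * gp k S.z := by
  have h1 : gp k S.z ∈ Fix (cj k Γ) ⊤ := by
    rw [mem_Fix_cj_iff]
    intro h _
    rw [← gp_mul, ← gp_mul, S.z_comm]
  exact (commute_of_mem (SubAlg_top x) h1).symm

theorem em_comm (x : MonoidAlgebra k Γ) : S.em k * x = x * S.em k := by
  unfold em
  rw [smul_mul_assoc, mul_smul_comm, sub_mul, mul_sub, one_mul, mul_one, S.gp_z_comm]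

theorem z_mul_em : gp k S.z * S.em k = - S.em k := by
  unfold em
  rw [mul_smul_comm, mul_sub, mul_one, ← gp_mul, S.z_sq, gp_one, ← smul_neg, neg_sub]

theorem em_em (h2 : (2 : k) ≠ 0) : S.em k * S.em k = S.em k := by
  conv_lhs => unfold em
  rw [smul_mul_assoc, sub_mul, one_mul]
  have h1 : gp k S.z * ((2 : k)⁻¹ • (1 - gp k S.z)) = - ((2 : k)⁻¹ • (1 - gp k S.z)) := S.z_mul_em
  rw [h1, sub_neg_eq_add, ← two_smul k, smul_smul, inv_mul_cancel₀ h2, one_smul]
  rfl

theorem em_mul_of_neg (h2 : (2 : k) ≠ 0) {a : MonoidAlgebra k Γ} (ha : S.Neg a) :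
    S.em k * a = a := by
  have h1 : gp k S.z * a = - a := S.neg_iff.1 ha
  unfold em
  rw [smul_mul_assoc, sub_mul, one_mul, h1, sub_neg_eq_add, ← two_smul k, smul_smul,
    inv_mul_cancel₀ h2, one_smul]

/-- The even elements. -/
def ΓA : Subgroup Γ := (alternatingGroup α).comap S.π

theorem mem_ΓA {g : Γ} : g ∈ S.ΓA ↔ Perm.sign (S.π g) = 1 := by
  unfold ΓA
  rw [Subgroup.mem_comap, Equiv.Perm.mem_alternatingGroup]

theorem ΓA_mul (x y : Γ) (hx : x ∉ S.ΓA) (hy : y ∉ S.ΓA) : x * y ∈ S.ΓA := by
  rw [mem_ΓA] at hx hy ⊢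
  have h1 := (S.sign_cases x).resolve_left hx
  have h2 := (S.sign_cases y).resolve_left hy
  rw [map_mul, map_mul, h1, h2]
  rfl

instance : S.ΓA.Normal := by unfold ΓA; infer_instance

theorem z_mem_ΓA : S.z ∈ S.ΓA := by rw [mem_ΓA, S.π_z, Perm.sign_one]

theorem τ_not_mem_ΓA {i j : α} (hij : i ≠ j) : S.τ i j ∉ S.ΓA := by
  rw [mem_ΓA, S.sign_τ hij]
  decide

/-- The sign. -/
def sg (k : Type*) [Field k] (g : Γ) : k := if Perm.sign (S.π g) = 1 then 1 else -1

theorem sg_even {g : Γ} (hg : g ∈ S.ΓA) : S.sg k g = 1 := if_pos (S.mem_ΓA.1 hg)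

theorem sg_odd {g : Γ} (hg : g ∉ S.ΓA) : S.sg k g = -1 := if_neg (fun h => hg (S.mem_ΓA.2 h))

theorem sg_sq (g : Γ) : S.sg k g * S.sg k g = 1 := by
  unfold sg
  split_ifs <;> simp

theorem em_mul_zpart (g : Γ) : S.em k * gp k (if Perm.sign (S.π g) = 1 then (1 : Γ) else S.z) =
    S.sg k g • S.em k := by
  unfold sg
  split_ifs
  · rw [gp_one, mul_one, one_smul]
  · rw [← S.gp_z_comm, S.z_mul_em, neg_smul, one_smul]

theorem gp_mul_τ (g : Γ) {i j : α} (hij : i ≠ j) :
    gp k g * (S.em k * gp k (S.τ i j)) =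
      S.sg k g • (S.em k * gp k (S.τ (S.π g i) (S.π g j)) * gp k g) := by
  have h1 : g * S.τ i j = (if Perm.sign (S.π g) = 1 then 1 else S.z) *
      S.τ (S.π g i) (S.π g j) * g := by
    rw [← S.conj hij, inv_mul_cancel_right]
  rw [← mul_assoc, ← S.em_comm, mul_assoc, ← gp_mul, h1, gp_mul, gp_mul, ← mul_assoc, ← mul_assoc,
    S.em_mul_zpart, smul_mul_assoc, smul_mul_assoc]

end Gen

/-- Subgroups containing the neighbour transpositions. -/
theorem mem_of_neighbours {n : ℕ} (K : Subgroup (Perm (Fin n))) : ∀ l : ℕ,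
    (∀ i j : Fin n, (j : ℕ) = i + 1 → (j : ℕ) < l → swap i j ∈ K) →
    ∀ h : Perm (Fin n), (∀ x : Fin n, l ≤ x → h x = x) → h ∈ K := by
  intro l
  induction l with
  | zero =>
    intro _ h hh
    have : h = 1 := by ext x; rw [hh x (Nat.zero_le _)]; rfl
    rw [this]
    exact K.one_mem
  | succ l ih =>
    intro hy h hh
    have ih' := ih (fun i j hij hj => hy i j hij (by omega))
    by_cases hl : l < n
    · set p : Fin n := ⟨l, hl⟩ with hp
      -- transpositions `(a l)`
      have hsw : ∀ a : Fin n, (a : ℕ) < l → swap a p ∈ K := by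
        intro a ha
        by_cases ha1 : (a : ℕ) + 1 = l
        · exact hy a p (by rw [hp]; exact ha1.symm) (by rw [hp]; exact Nat.lt_succ_self l)
        · set q : Fin n := ⟨l - 1, by omega⟩ with hq
          have hqp : (p : ℕ) = q + 1 := by rw [hp, hq]; show l = l - 1 + 1; omega
          have haq : a ≠ q := by
            intro h'; rw [h'] at ha1; apply ha1; show l - 1 + 1 = l; omega
          have hap : a ≠ p := by intro h'; rw [h'] at ha; exact absurd ha (lt_irrefl _)
          have e : swap a p = swap q p * swap a q * swap q p := by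
            have := Equiv.swap_apply_apply (swap q p) a q
            rwa [swap_apply_of_ne_of_ne haq hap, swap_apply_left, Equiv.swap_inv] at this
          have c1 := hy q p hqp (by rw [hp]; exact Nat.lt_succ_self l)
          have c2 := ih' (swap a q) (fun x hx => swap_apply_of_ne_of_ne
            (by rintro rfl; omega) (by rintro rfl; rw [hq] at hx; simp only at hx; omega))
          rw [e]
          exact K.mul_mem (K.mul_mem c1 c2) c1
      by_cases hhp : h p = p
      · apply ih' h
        intro x hx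
        by_cases hxl : (x : ℕ) = l
        · have : x = p := Fin.ext hxl
          rw [this, hhp]
        · exact hh x (by omega)
      · have hlt : ((h p : Fin n) : ℕ) < l := by
          by_contra hc
          have h1 : h (h p) = h p := by
            rcases Nat.lt_or_ge l (h p : Fin n) with h2 | h2
            · exact hh _ h2
            · exfalso
              apply hhp
              apply Fin.ext
              show ((h p : Fin n) : ℕ) = l
              omega
          exact hhp (h.injective h1)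
        have e : h = swap (h p) p * (swap (h p) p * h) := by
          rw [← mul_assoc, swap_mul_self, one_mul]
        rw [e]
        apply K.mul_mem (hsw _ hlt)
        apply ih'
        intro x hx
        by_cases hxl : (x : ℕ) = l
        · have : x = p := Fin.ext hxl
          rw [this, Perm.mul_apply, swap_apply_left]
        · have h3 : h x = x := hh x (by omega)
          rw [Perm.mul_apply, h3]
          apply swap_apply_of_ne_of_ne
          · rintro rfl; omega
          · rintro rfl; exact hxl rfl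
    · apply ih'
      intro x hx
      exact absurd x.2 (by omega)

section FinN

variable {n : ℕ} {Γ : Type} [Group Γ] [Fintype Γ] [DecidableEq Γ]
  (S : SpinStr (Fin n) Γ) {k : Type*} [Field k]

/-- The Jucys-Murphy elements. -/
noncomputable def LS (k : Type*) [Field k] (j : Fin n) : MonoidAlgebra k Γ :=
  ∑ i ∈ univ.filter (fun i : Fin n => i < j), S.em k * gp k (S.τ i j)

theorem gp_mul_LS {σ : Γ} {j : Fin n} (h1 : S.π σ j = j) (h2 : ∀ x, S.π σ x < j ↔ x < j) :
    gp k σ * S.LS k j = S.sg k σ • (S.LS k j * gp k σ) := by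
  unfold LS
  rw [mul_sum, sum_mul, smul_sum]
  apply sum_bij (fun f _ => S.π σ f)
  · intro f hf
    rw [mem_filter] at hf ⊢
    exact ⟨mem_univ _, (h2 f).2 hf.2⟩
  · intro a _ b _ hab; exact (S.π σ).injective hab
  · intro f hf
    rw [mem_filter] at hf
    refine ⟨(S.π σ)⁻¹ f, ?_, perm_apply_inv _ _⟩
    rw [mem_filter]
    refine ⟨mem_univ _, (h2 _).1 ?_⟩
    rw [perm_apply_inv]
    exact hf.2
  · intro f hf
    rw [mem_filter] at hf
    rw [S.gp_mul_τ σ hf.2.ne, h1]

theorem LS_anti_of_lt {i j : Fin n} (hij : i < j) :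
    S.LS k i * S.LS k j = - (S.LS k j * S.LS k i) := by
  conv_lhs => unfold LS
  rw [sum_mul]
  have key : ∀ a ∈ univ.filter (fun a : Fin n => a < i),
      S.em k * gp k (S.τ a i) * S.LS k j = - (S.LS k j * (S.em k * gp k (S.τ a i))) := by
    intro a ha
    rw [mem_filter] at ha
    have ha' : a < j := ha.2.trans hij
    have hp := S.π_τ ha.2.ne
    rw [mul_assoc, S.gp_mul_LS (σ := S.τ a i) (j := j), S.sg_odd (S.τ_not_mem_ΓA ha.2.ne), neg_smul,
      one_smul, mul_neg, ← mul_assoc, S.em_comm, mul_assoc]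
    · rw [hp]
      exact swap_apply_of_ne_of_ne ha'.ne' hij.ne'
    · intro x
      rw [hp]
      rcases eq_or_ne x a with rfl | hxa
      · rw [swap_apply_left]; simp only [hij, ha']
      · rcases eq_or_ne x i with rfl | hxi
        · rw [swap_apply_right]; simp only [hij, ha']
        · rw [swap_apply_of_ne_of_ne hxa hxi]
  have h3 : ∑ a ∈ univ.filter (fun a : Fin n => a < i), S.em k * gp k (S.τ a i) * S.LS k j =
      - (S.LS k j * S.LS k i) := by
    rw [sum_congr rfl key, sum_neg_distrib, ← mul_sum]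
    rfl
  exact h3

theorem LS_anti {i j : Fin n} (hij : i ≠ j) :
    S.LS k i * S.LS k j = - (S.LS k j * S.LS k i) := by
  rcases lt_or_gt_of_ne hij with h | h
  · exact S.LS_anti_of_lt h
  · rw [S.LS_anti_of_lt h, neg_neg]

/-- The relations between neighbours. -/
theorem gp_mul_LS_succ {i j : Fin n} (hij : (j : ℕ) = i + 1) :
    gp k (S.τ i j) * S.LS k j = - (S.LS k i * gp k (S.τ i j)) +
      S.em k * gp k (S.τ i j * S.τ i j) := by
  have hlt : i < j := by rw [Fin.lt_def]; omega
  have h1 : univ.filter (fun x : Fin n => x < j) = insert i (univ.filter (fun x : Fin n => x < i)) := by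
    ext x
    simp only [mem_filter, mem_univ, true_and, mem_insert, Fin.lt_def, Fin.ext_iff]
    omega
  have h2 : i ∉ univ.filter (fun x : Fin n => x < i) := by simp
  unfold LS
  rw [h1, sum_insert h2, mul_add, mul_sum, sum_mul, ← mul_assoc, ← S.em_comm, mul_assoc, ← gp_mul,
    add_comm, ← sum_neg_distrib]
  congr 1
  apply sum_congr rfl
  intro x hx
  rw [mem_filter] at hx
  have hxj : x < j := hx.2.trans hlt
  rw [S.gp_mul_τ _ hxj.ne, S.π_τ hlt.ne, swap_apply_right,
    swap_apply_of_ne_of_ne hx.2.ne hxj.ne, S.sg_odd (S.τ_not_mem_ΓA hlt.ne), neg_smul, one_smul]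

theorem gp_mul_LS_pred {i j : Fin n} (hij : (j : ℕ) = i + 1) :
    gp k (S.τ i j) * S.LS k i = - (S.LS k j * gp k (S.τ i j)) +
      S.em k * gp k (S.τ i j * S.τ i j) := by
  have hlt : i < j := by rw [Fin.lt_def]; omega
  have h1 : univ.filter (fun x : Fin n => x < j) = insert i (univ.filter (fun x : Fin n => x < i)) := by
    ext x
    simp only [mem_filter, mem_univ, true_and, mem_insert, Fin.lt_def, Fin.ext_iff]
    omega
  have h2 : i ∉ univ.filter (fun x : Fin n => x < i) := by simp
  unfold LS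
  rw [h1, sum_insert h2, add_mul, neg_add_rev, add_assoc, mul_assoc (S.em k), ← gp_mul,
    neg_add_cancel, add_zero, mul_sum, sum_mul, ← sum_neg_distrib]
  apply sum_congr rfl
  intro x hx
  rw [mem_filter] at hx
  have hxj : x < j := hx.2.trans hlt
  rw [S.gp_mul_τ _ hx.2.ne, S.π_τ hlt.ne, swap_apply_left,
    swap_apply_of_ne_of_ne hx.2.ne hxj.ne, S.sg_odd (S.τ_not_mem_ΓA hlt.ne), neg_smul, one_smul]

/-- The squares of the Jucys-Murphy elements. -/
noncomputable def MS (k : Type*) [Field k] (j : Fin n) : MonoidAlgebra k Γ := S.LS k j * S.LS k j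

theorem anti_sq {A : Type*} [Ring A] {a b : A} (h : a * b = - (b * a)) :
    a * (b * b) = (b * b) * a := by
  rw [← mul_assoc, h, neg_mul, mul_assoc, h, mul_neg, neg_neg, mul_assoc]

theorem LS_comm_MS (i j : Fin n) : S.LS k i * S.MS k j = S.MS k j * S.LS k i := by
  unfold MS
  rcases eq_or_ne i j with rfl | h
  · rw [mul_assoc]
  · exact anti_sq (S.LS_anti h)

theorem MS_comm (i j : Fin n) : S.MS k i * S.MS k j = S.MS k j * S.MS k i := by
  have e : S.MS k i = S.LS k i * S.LS k i := rfl
  rw [e, mul_assoc, S.LS_comm_MS, ← mul_assoc, S.LS_comm_MS, mul_assoc]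

theorem gp_comm_MS {σ : Γ} {j : Fin n} (h1 : S.π σ j = j) (h2 : ∀ x, S.π σ x < j ↔ x < j) :
    Commute (gp k σ) (S.MS k j) := by
  unfold Commute SemiconjBy MS
  rw [← mul_assoc, S.gp_mul_LS h1 h2, smul_mul_assoc, mul_assoc, S.gp_mul_LS h1 h2, mul_smul_comm,
    smul_smul, S.sg_sq, one_smul, mul_assoc]

section Rel

variable {A : Type*} [Ring A] {s a b c : A}

theorem rel_sq (h1 : s * a = - (b * s) + c) : s * (a * a) = b * b * s - b * c + c * a := by
  calc s * (a * a) = (s * a) * a := by rw [mul_assoc]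
    _ = (- (b * s) + c) * a := by rw [h1]
    _ = - (b * (s * a)) + c * a := by noncomm_ring
    _ = - (b * (- (b * s) + c)) + c * a := by rw [h1]
    _ = _ := by noncomm_ring

theorem rel_add (h1 : s * a = - (b * s) + c) (h2 : s * b = - (a * s) + c)
    (ca : c * a = a * c) (cb : c * b = b * c) : s * (b * b + a * a) = (b * b + a * a) * s := by
  rw [mul_add, rel_sq h1, rel_sq h2, add_mul, ca, cb]
  abel

theorem rel_mul (h1 : s * a = - (b * s) + c) (h2 : s * b = - (a * s) + c)
    (ca : c * a = a * c) (cb : c * b = b * c) (hab : a * b = - (b * a)) :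
    s * ((b * b) * (a * a)) = ((b * b) * (a * a)) * s := by
  have hba : b * a = - (a * b) := by rw [hab, neg_neg]
  have e1 : b * (a * a) = (a * a) * b := anti_sq hba
  have e2 : a * (b * b) = (b * b) * a := anti_sq hab
  have e3 : (a * a) * (b * b) = (b * b) * (a * a) := by rw [mul_assoc, e2, ← mul_assoc, e2, mul_assoc]
  calc s * ((b * b) * (a * a)) = (s * (b * b)) * (a * a) := by rw [← mul_assoc s]
    _ = a * a * (s * (a * a)) - a * c * (a * a) + c * (b * (a * a)) := by
        rw [rel_sq h2]; noncomm_ring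
    _ = (a * a) * (b * b) * s - a * a * b * c + a * a * (c * a) - a * (c * a) * a
          + c * (a * a * b) := by
        rw [rel_sq h1, e1]; noncomm_ring
    _ = (a * a) * (b * b) * s - a * a * b * c + c * (a * a * b) := by
        rw [ca]
        have : a * (a * c) * a = a * a * (a * c) := by
          rw [mul_assoc a (a * c) a, mul_assoc a c a, ca]; noncomm_ring
        rw [this]; abel
    _ = (a * a) * (b * b) * s := by
        have : c * (a * a * b) = a * a * b * c := by
          rw [← mul_assoc, ← mul_assoc, ca, mul_assoc a c a, ca, ← mul_assoc, mul_assoc _ c b, cb,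
            ← mul_assoc]
        rw [this]; abel
    _ = _ := by rw [e3]

end Rel

theorem cc_comm {i j : Fin n} (hij : i ≠ j) (x : MonoidAlgebra k Γ) :
    S.em k * gp k (S.τ i j * S.τ i j) * x = x * (S.em k * gp k (S.τ i j * S.τ i j)) := by
  have h1 : S.τ i j * S.τ i j = 1 ∨ S.τ i j * S.τ i j = S.z := by
    rw [← S.ker, map_mul, S.π_τ hij, swap_mul_self]
  rcases h1 with h1 | h1 <;> rw [h1]
  · rw [gp_one, mul_one, S.em_comm]
  · rw [mul_assoc, S.gp_z_comm, ← mul_assoc, S.em_comm, mul_assoc]

theorem gp_comm_add {i j : Fin n} (hij : (j : ℕ) = i + 1) :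
    Commute (gp k (S.τ i j)) (S.MS k i + S.MS k j) := by
  have hlt : i ≠ j := by intro h; rw [h] at hij; omega
  exact rel_add (S.gp_mul_LS_succ hij) (S.gp_mul_LS_pred hij) (S.cc_comm hlt _) (S.cc_comm hlt _)

theorem gp_comm_mul {i j : Fin n} (hij : (j : ℕ) = i + 1) :
    Commute (gp k (S.τ i j)) (S.MS k i * S.MS k j) := by
  have hlt : i ≠ j := by intro h; rw [h] at hij; omega
  exact rel_mul (S.gp_mul_LS_succ hij) (S.gp_mul_LS_pred hij) (S.cc_comm hlt _) (S.cc_comm hlt _)
    (S.LS_anti hlt.symm)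

/-! ### The products -/

/-- The linear factors. -/
noncomputable def fac (k : Type*) [Field k] (i : ℕ) : (MonoidAlgebra k Γ)[X] :=
  if h : i < n then X - C (S.MS k ⟨i, h⟩) else 1

/-- The product of `m` factors, from `l` on. -/
noncomputable def Q (k : Type*) [Field k] (l : ℕ) : ℕ → (MonoidAlgebra k Γ)[X]
  | 0 => 1
  | m + 1 => Q k l m * S.fac k (l + m)

theorem Q_add (l m m' : ℕ) : S.Q k l (m + m') = S.Q k l m * S.Q k (l + m) m' := by
  induction m' with
  | zero => rw [add_zero]; simp [Q]
  | succ m' ih => rw [← add_assoc, Q, Q, ih, mul_assoc, add_assoc]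

theorem gp_comm_fac {i j : Fin n} (hij : (j : ℕ) = i + 1) {a : ℕ} (h1 : a ≠ i) (h2 : a ≠ j) :
    Commute (C (gp k (S.τ i j))) (S.fac k a) := by
  unfold fac
  split_ifs with h
  · have hai : (⟨a, h⟩ : Fin n) ≠ i := fun h' => h1 (congrArg Fin.val h')
    have haj : (⟨a, h⟩ : Fin n) ≠ j := fun h' => h2 (congrArg Fin.val h')
    have hne : i ≠ j := by intro h; rw [h] at hij; omega
    apply Commute.sub_right
    · exact Polynomial.commute_X _ |>.symm
    · have := (S.gp_comm_MS (k := k) (σ := S.τ i j) (j := ⟨a, h⟩)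
        (by rw [S.π_τ hne]; exact swap_apply_of_ne_of_ne hai haj) (fun x => ?_))
      · unfold Commute SemiconjBy
        rw [← C_mul, ← C_mul, this.eq]
      · rw [S.π_τ hne]
        rcases eq_or_ne x i with rfl | hxa
        · rw [swap_apply_left]; simp only [Fin.lt_def]; omega
        · rcases eq_or_ne x j with rfl | hxi
          · rw [swap_apply_right]; simp only [Fin.lt_def]; omega
          · rw [swap_apply_of_ne_of_ne hxa hxi]
  · exact Commute.one_right _

theorem gp_comm_pair {i j : Fin n} (hij : (j : ℕ) = i + 1) :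
    Commute (C (gp k (S.τ i j))) (S.fac k i * S.fac k j) := by
  have e : S.fac k i * S.fac k j = X * X - X * C (S.MS k i + S.MS k j) + C (S.MS k i * S.MS k j) := by
    unfold fac
    rw [dif_pos i.2, dif_pos j.2, C_add, C_mul]
    simp only [Fin.eta]
    rw [sub_mul, mul_sub, mul_sub, mul_add, (commute_X (C (S.MS k i))).eq]
    abel
  rw [e]
  have hX : Commute (C (gp k (S.τ i j))) (X : (MonoidAlgebra k Γ)[X]) :=
    (commute_X _).symm
  have hC : ∀ y, Commute (gp k (S.τ i j)) y →
      Commute (C (gp k (S.τ i j))) (C y : (MonoidAlgebra k Γ)[X]) := by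
    intro y hy
    unfold Commute SemiconjBy
    rw [← C_mul, ← C_mul, hy.eq]
  exact ((hX.mul_right hX).sub_right (hX.mul_right (hC _ (S.gp_comm_add hij)))).add_right
    (hC _ (S.gp_comm_mul hij))

/-- Products over intervals which contain both or none of `i`, `i + 1`. -/
theorem gp_comm_Q {i j : Fin n} (hij : (j : ℕ) = i + 1) (l m : ℕ)
    (h : (i : ℕ) < l ∧ (j : ℕ) < l ∨ l + m ≤ i ∨ l ≤ i ∧ (j : ℕ) < l + m) :
    Commute (C (gp k (S.τ i j))) (S.Q k l m) := by
  have h0 : ∀ m, ((i : ℕ) < l ∧ (j : ℕ) < l ∨ l + m ≤ i) → Commute (C (gp k (S.τ i j))) (S.Q k l m) := by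
    intro m
    induction m with
    | zero => intro _; exact Commute.one_right _
    | succ m ih =>
      intro h
      rw [Q]
      apply Commute.mul_right (ih (by omega))
      apply S.gp_comm_fac hij <;> omega
  rcases h with h | h | ⟨h1, h2⟩
  · exact h0 m (Or.inl h)
  · exact h0 m (Or.inr h)
  · obtain ⟨d, hd⟩ := Nat.exists_eq_add_of_le h1
    obtain ⟨r, hr⟩ := Nat.exists_eq_add_of_le (show d + 2 ≤ m by omega)
    rw [hr, Q_add, show d + 2 = (d + 1) + 1 from rfl, Q, Q, mul_assoc (S.Q k l d)]
    have e1 : l + d = (i : ℕ) := by omega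
    have e2 : l + (d + 1) = (j : ℕ) := by omega
    rw [e1, e2]
    refine ((h0 d (Or.inr (by omega))).mul_right (S.gp_comm_pair hij)).mul_right ?_
    clear hr h2 h1
    induction r with
    | zero => exact Commute.one_right _
    | succ r ih =>
      rw [Q]
      apply Commute.mul_right ih
      apply S.gp_comm_fac hij <;> omega

/-- Elements commuting with the lifts of the neighbour transpositions of the first `l` points. -/
theorem comm_of_neighbours (y : MonoidAlgebra k Γ) (l : ℕ)
    (hy : ∀ i j : Fin n, (j : ℕ) = i + 1 → (j : ℕ) < l → Commute (gp k (S.τ i j)) y) :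
    ∀ h ∈ S.ΓF (Fl n l), Commute (gp k h) y := by
  let K0 : Subgroup Γ :=
    { carrier := {h | Commute (gp k h) y}
      mul_mem' := fun {a b} ha hb => by
        show Commute (gp k (a * b)) y
        rw [gp_mul]; exact Commute.mul_left ha hb
      one_mem' := by
        show Commute (gp k 1) y
        rw [gp_one]; exact Commute.one_left y
      inv_mem' := fun {a} ha => by
        have h1 : Commute (gp k a) y := ha
        have h2 : gp k a⁻¹ * gp k a = 1 := by rw [← gp_mul, inv_mul_cancel]; rfl
        have h3 : gp k a * gp k a⁻¹ = 1 := by rw [← gp_mul, mul_inv_cancel]; rfl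
        show gp k a⁻¹ * y = y * gp k a⁻¹
        calc gp k a⁻¹ * y = gp k a⁻¹ * y * (gp k a * gp k a⁻¹) := by rw [h3, mul_one]
          _ = gp k a⁻¹ * (y * gp k a) * gp k a⁻¹ := by simp only [mul_assoc]
          _ = gp k a⁻¹ * (gp k a * y) * gp k a⁻¹ := by rw [h1.eq]
          _ = (gp k a⁻¹ * gp k a) * y * gp k a⁻¹ := by simp only [mul_assoc]
          _ = _ := by rw [h2, one_mul] }
  have hK0 : ∀ h, h ∈ K0 ↔ Commute (gp k h) y := fun h => Iff.rfl
  intro h hh
  have h1 : S.π h ∈ K0.map S.π := by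
    apply mem_of_neighbours _ l
    · intro i j hij hj
      have hne : i ≠ j := by intro h; rw [h] at hij; omega
      exact ⟨S.τ i j, hy i j hij hj, S.π_τ hne⟩
    · intro x hx
      apply hh
      rw [mem_Fl]
      omega
  obtain ⟨h', hh', he⟩ := h1
  rw [← hK0]
  have h2 : h * h'⁻¹ = 1 ∨ h * h'⁻¹ = S.z := by
    rw [← S.ker, map_mul, map_inv, he, mul_inv_cancel]
  have h3 : h = (h * h'⁻¹) * h' := by group
  rw [h3]
  apply K0.mul_mem _ hh'
  rcases h2 with h2 | h2 <;> rw [h2]
  · exact K0.one_mem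
  · exact S.gp_z_comm y

end FinN

end SpinStr

end Vale.Agent.P180.R2.H589
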