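import Vale.Agent.P180.R2.H589.Spin.Corner2

set_option linter.unusedSectionVars false

/-!
P180: the corner bound for spin blocks of double covers of alternating groups, final statement.
-/

namespace Vale.Agent.P180.R2.H589

open Equiv Finset Module
open Vale.Agent.P180 Vale.Agent.P180.H768.Gd

universe u

section BJ

variable {k : Type u} [Field k] [IsAlgClosed k] {G : Type} [Group G] [Finite G] {N : Subgroup G}

/-- The central idempotent of `kG` over a block of a subgroup of index at most two, and its radical. -/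
theorem exists_BJ [N.Normal] (hN : ∀ x y : G, x ∉ N → y ∉ N → x * y ∈ N)
    {b : MonoidAlgebra k N} (hb : IsBlockOf (⊤ : Subgroup N) b) {g : ℕ} (hg0 : 0 < g)
    (hg : H799.Jb b ^ g = ⊥) :
    ∃ (B : MonoidAlgebra k G) (J : Submodule k (MonoidAlgebra k G)), B ∈ Fix (cj k G) ⊤ ∧
      B * B = B ∧ B * incl k N b = incl k N b ∧
      (∀ j ∈ J, ∀ x, j * x = x * j) ∧
      (∀ z ∈ Fix (cj k G) ⊤, z ∈ SubAlg k N → ∃ c : k, B * z - c • B ∈ J) ∧ J ^ g = ⊥ := by
  set ι := incl k N with hι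
  have hmapT : (⊤ : Subgroup N).map N.subtype = N := by
    rw [← MonoidHom.range_eq_map, Subgroup.range_subtype]
  have hb1 : IsBlockOf N (ι b) := by
    rw [hι, isBlockOf_incl_iff]
    have := hb
    rw [IsBlockOf, ZAlg_top] at this
    exact this
  -- the idempotent
  obtain ⟨B, hBF, hBB, hBb, hcov⟩ : ∃ B : MonoidAlgebra k G, B ∈ Fix (cj k G) ⊤ ∧ B * B = B ∧
      B * ι b = ι b ∧ ∀ x ∈ Fix (cj k G) ⊤, B * x = x → ι b * x = 0 → x = 0 := by
    by_cases hfix : ι b ∈ Fix (cj k G) ⊤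
    · exact ⟨ι b, hfix, hb1.idem, hb1.idem, fun x _ h1 h2 => by rw [← h1, h2]⟩
    · obtain ⟨t, ht⟩ : ∃ t, cj k G t (ι b) ≠ ι b := by
        by_contra hcon
        push Not at hcon
        exact hfix fun g _ => hcon g
      have htN : t ∉ N := fun h => ht (hb1.mem.2 t h)
      have hbt' : IsBlockOf N (cj k G t (ι b)) := hb1.conj t
      have hort : ι b * cj k G t (ι b) = 0 := by
        rcases IsPrimIn.eq_or_mul_eq_zero (by exact ZAlg_comm) hb1 hbt' with h | h
        · exact absurd h.symm ht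
        · exact h
      have hort' : cj k G t (ι b) * ι b = 0 := by rw [ZAlg_comm _ hbt'.mem _ hb1.mem, hort]
      refine ⟨ι b + cj k G t (ι b), ?_, ?_, ?_, ?_⟩
      · apply fix_top_of hN htN (Subalgebra.add_mem _ hb1.mem.2 hbt'.mem.2)
        rw [map_add, conj_conj hN htN hb1.mem.2, add_comm]
      · rw [add_mul, mul_add, mul_add, hb1.idem.eq, hbt'.idem.eq, hort, hort', add_zero, zero_add]
      · rw [add_mul, hb1.idem.eq, hort', add_zero]
      · intro x hx h1 h2
        have h3 : cj k G t (ι b) * x = 0 := by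
          have h4 := congrArg (cj k G t) h2
          rwa [map_mul, hx t trivial, map_zero] at h4
        rw [← h1, add_mul, h2, h3, add_zero]
  have hcomm : ∀ x ∈ Fix (cj k G) ⊤, ∀ y, x * y = y * x := fun x hx y =>
    (commute_of_mem (SubAlg_top y) hx).symm
  set J1 : Submodule k (MonoidAlgebra k G) := (H799.Jb b).map ι.toLinearMap with hJ1
  have hJ1g : J1 ^ g = ⊥ := by
    have := Submodule.map_pow (H799.Jb b) ι g
    rw [hg, Submodule.map_bot] at this
    exact this.symm
  let J : Submodule k (MonoidAlgebra k G) :=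
    { carrier := {x | x ∈ Fix (cj k G) ⊤ ∧ B * x = x ∧ ι b * x ∈ J1}
      add_mem' := by
        rintro x y ⟨h1, h2, h3⟩ ⟨h1', h2', h3'⟩
        exact ⟨Subalgebra.add_mem _ h1 h1', by rw [mul_add, h2, h2'], by
          rw [mul_add]; exact Submodule.add_mem _ h3 h3'⟩
      zero_mem' := ⟨Subalgebra.zero_mem _, mul_zero _, by rw [mul_zero]; exact Submodule.zero_mem _⟩
      smul_mem' := by
        rintro c x ⟨h1, h2, h3⟩
        exact ⟨Subalgebra.smul_mem _ h1 c, by rw [mul_smul_comm, h2], by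
          rw [mul_smul_comm]; exact Submodule.smul_mem _ _ h3⟩ }
  have hJ : ∀ x, x ∈ J ↔ x ∈ Fix (cj k G) ⊤ ∧ B * x = x ∧ ι b * x ∈ J1 := fun x => Iff.rfl
  refine ⟨B, J, hBF, hBB, hBb, fun j hj x => hcomm j hj.1 x, ?_, ?_⟩
  · intro z hz hzN
    obtain ⟨z', rfl⟩ := exists_incl N hzN
    have hz' : z' ∈ Fix (cj k N) ⊤ := by
      rw [← incl_mem_Fix_iff, hmapT]
      exact Fix_mono _ le_top hz
    obtain ⟨c, hc⟩ := H799.exists_scalar_Jb hb z' hz'
    refine ⟨c, ?_⟩
    rw [hJ]
    refine ⟨Subalgebra.sub_mem _ (Subalgebra.mul_mem _ hBF hz) (Subalgebra.smul_mem _ hBF c), ?_, ?_⟩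
    · rw [mul_sub, ← mul_assoc, hBB, mul_smul_comm, hBB]
    · refine ⟨b * z' - c • b, hc, ?_⟩
      show ι (b * z' - c • b) = _
      have hbB : ι b * B = ι b := by rw [← hcomm B hBF, hBb]
      rw [map_sub, map_mul, map_smul, mul_sub, ← mul_assoc, mul_smul_comm, hbB]
  · -- powers
    have key : ∀ n : ℕ, ∀ x ∈ J ^ (n + 1), x ∈ Fix (cj k G) ⊤ ∧ B * x = x ∧
        ι b * x ∈ J1 ^ (n + 1) := by
      intro n
      induction n with
      | zero =>
        intro x hx
        rw [zero_add, pow_one] at hx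
        rw [zero_add, pow_one]
        exact hx
      | succ n ih =>
        intro x hx
        rw [pow_succ] at hx
        refine Submodule.mul_induction_on hx ?_ ?_
        · intro x hx y hy
          obtain ⟨h1, h2, h3⟩ := ih x hx
          obtain ⟨h1', h2', h3'⟩ := hy
          refine ⟨Subalgebra.mul_mem _ h1 h1', by rw [← mul_assoc, h2], ?_⟩
          rw [pow_succ]
          have h4 : ι b * (x * y) = (ι b * x) * (ι b * y) := by
            have h5 : ι b * x = x * ι b := (hcomm x h1 _).symm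
            calc ι b * (x * y) = (ι b * ι b) * x * y := by rw [hb1.idem.eq, mul_assoc]
              _ = ι b * (ι b * x) * y := by rw [mul_assoc (ι b)]
              _ = ι b * (x * ι b) * y := by rw [h5]
              _ = _ := by simp only [mul_assoc]
          rw [h4]
          exact Submodule.mul_mem_mul h3 h3'
        · rintro x y ⟨h1, h2, h3⟩ ⟨h1', h2', h3'⟩
          exact ⟨Subalgebra.add_mem _ h1 h1', by rw [mul_add, h2, h2'], by
            rw [mul_add]; exact Submodule.add_mem _ h3 h3'⟩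
    rw [eq_bot_iff]
    intro x hx
    obtain ⟨n, rfl⟩ : ∃ n, g = n + 1 := ⟨g - 1, by omega⟩
    obtain ⟨h1, h2, h3⟩ := key n x hx
    rw [hJ1g, Submodule.mem_bot] at h3
    rw [Submodule.mem_bot]
    exact hcov x h1 h2 h3

end BJ

namespace SpinStr

variable {α : Type} [Fintype α] [DecidableEq α] {Γ : Type} [Group Γ] [Fintype Γ] [DecidableEq Γ]
  (S : SpinStr α Γ)

/-- The corner bound in the group algebra of `Γ`. -/
theorem finrank_corner_le {k : Type*} [Field k] (h2 : (2 : k) ≠ 0) (F : Finset α)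
    {f b B : MonoidAlgebra k Γ} {J : Submodule k (MonoidAlgebra k Γ)}
    (hf : f ∈ SubAlg k (S.ΓF F ⊓ S.ΓA)) (hff : f * f = f)
    (hfn : gp k S.z * f = - f)
    (hfS : ∀ y ∈ SubAlg k (S.ΓF F ⊓ S.ΓA), ∃ c : k, f * y * f = c • f)
    (hbA : b ∈ SubAlg k S.ΓA) (hbF : b ∈ Fix (cj k Γ) S.ΓA) (hBb : B * b = b)
    (hJc : ∀ j ∈ J, ∀ x, j * x = x * j)
    (hB : B ∈ Fix (cj k Γ) ⊤) (hBB : B * B = B)
    (hJ : ∀ z ∈ Fix (cj k Γ) ⊤, z ∈ SubAlg k S.ΓA → ∃ c : k, B * z - c • B ∈ J)
    {g : ℕ} (hg : J ^ g = ⊥) :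
    finrank k (Submodule.map ((LinearMap.mulLeft k (b * f)).comp (LinearMap.mulRight k (b * f)))
      (Subalgebra.toSubmodule (SubAlg k S.ΓA))) ≤
      4 * ((Fᶜ).card.factorial * (2 * g * (Fᶜ).card) ^ (Fᶜ).card) := by
  classical
  have hfd : FiniteDimensional k (MonoidAlgebra k Γ) :=
    Module.Finite.equiv (MonoidAlgebra.coeffLinearEquiv k (M := Γ) (S := k)).symm
  by_cases hf0 : f = 0
  · have h1 : Submodule.map ((LinearMap.mulLeft k (b * f)).comp (LinearMap.mulRight k (b * f)))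
        (Subalgebra.toSubmodule (SubAlg k S.ΓA)) = ⊥ := by
      rw [eq_bot_iff]
      rintro _ ⟨x, _, rfl⟩
      show (b * f) * (x * (b * f)) ∈ _
      rw [hf0]
      simp
    rw [h1]
    simp
  obtain ⟨E, s, x, y, hEZ, hEE, hfE, hx, hy, hE⟩ := exists_block hf hff hf0 hfS
  have hfA : f ∈ SubAlg k S.ΓA := SubAlg_mono inf_le_right hf
  have hfb : f * b = b * f := commute_of_mem hfA hbF
  have hBc : ∀ x, B * x = x * B := fun x => (commute_of_mem (SubAlg_top x) hB).symm
  have hES : ∀ z ∈ SubAlg k (S.ΓF F ⊓ S.ΓA), E * z = z * E := fun z hz =>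
    (commute_of_mem hz hEZ.2).symm
  have h1 := S.finrank_TT_le h2 F rfl hf hff hf0 hfn hfS hx hy hE hEZ hEE hfE hJc hB hBB hJ hg
  have h3 : Submodule.map ((LinearMap.mulLeft k (b * f)).comp (LinearMap.mulRight k (b * f)))
        (Subalgebra.toSubmodule (SubAlg k S.ΓA)) ≤
      Submodule.map ((LinearMap.mulLeft k f).comp (LinearMap.mulRight k f)) (S.TT F E B) := by
    rintro _ ⟨u, hu, rfl⟩
    have hu' : u ∈ SubAlg k S.ΓA := hu
    set a := (b * f) * (u * (b * f)) with ha
    have hfa : f * a * f = a := by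
      have e1 : f * (b * f) = b * f := by rw [← mul_assoc, hfb, mul_assoc, hff]
      have e2 : (b * f) * f = b * f := by rw [mul_assoc, hff]
      calc f * a * f = (f * (b * f)) * (u * ((b * f) * f)) := by rw [ha]; simp only [mul_assoc]
        _ = a := by rw [e1, e2]
    have hBa : B * a = a := by
      rw [ha, ← mul_assoc, ← mul_assoc B, hBb]
    have haA : a ∈ SubAlg k S.ΓA := Subalgebra.mul_mem _ (Subalgebra.mul_mem _ hbA hfA)
      (Subalgebra.mul_mem _ hu' (Subalgebra.mul_mem _ hbA hfA))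
    have han : gp k S.z * a = - a := by
      have e1 : gp k S.z * (b * f) = - (b * f) := by
        rw [← mul_assoc, S.gp_z_comm b, mul_assoc, hfn, mul_neg]
      rw [ha, ← mul_assoc, e1, neg_mul]
    obtain ⟨h4, h5, h6, h7⟩ := exists_lift hf hff hfS s x y hx hy hE hES hfE a hfa
    refine ⟨∑ i ∈ s, x i * a * y i, ⟨?_, ?_, h6, ?_, ?_⟩, ?_⟩
    · apply Subalgebra.sum_mem
      intro i _
      exact Subalgebra.mul_mem _ (Subalgebra.mul_mem _ (SubAlg_mono inf_le_right (hx i)) haA)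
        (SubAlg_mono inf_le_right (hy i))
    · rw [mem_Fix_cj_iff]
      intro g hg
      exact h4 _ (single_mem_SubAlg hg 1)
    · rw [mul_sum]
      apply sum_congr rfl
      intro i _
      rw [← mul_assoc, ← mul_assoc, hBc (x i), mul_assoc (x i), hBa]
    · rw [S.neg_iff]
      show gp k S.z * _ = _
      rw [mul_sum, ← sum_neg_distrib]
      apply sum_congr rfl
      intro i _
      rw [← mul_assoc, ← mul_assoc, S.gp_z_comm (x i), mul_assoc (x i), han]
      noncomm_ring
    · show f * ((∑ i ∈ s, x i * a * y i) * f) = a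
      rw [← mul_assoc, h5]
  exact (Submodule.finrank_mono h3).trans ((Submodule.finrank_map_le _ _).trans h1)

variable {p : ℕ} [Fact p.Prime] {k : Type u} [Field k] [CharP k p] [IsAlgClosed k]

/-- The preimage of `Alt(F)`, as a subgroup of the preimage of `Alt`. -/
def AF (F : Finset α) : Subgroup S.ΓA := (S.ΓF F).subgroupOf S.ΓA

/-- **The corner bound for spin blocks.**  Here `S.ΓA` is the double cover of the alternating group
on `α`. -/
theorem spin_corner (h2 : (2 : k) ≠ 0) (F : Finset α) {P : Subgroup S.ΓA} (hP : IsPGroup p P)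
    {b f a : MonoidAlgebra k S.ΓA} (hb : IsBlockOf ⊤ b)
    (ha : a ∈ Fix (cj k S.ΓA) P) (hba : b = tr (cj k S.ΓA) P ⊤ a)
    (hf : f ∈ SubAlg k (S.AF F)) (hff : f * f = f)
    (hfS : ∀ y ∈ SubAlg k (S.AF F), ∃ c : k, f * y * f = c • f)
    (hfn : MonoidAlgebra.single (⟨S.z, S.z_mem_ΓA⟩ : S.ΓA) (1 : k) * f = - f) :
    finrank k (crn k (b * f) (b * f)) ≤ CC (Nat.card P) (Fᶜ).card := by
  classical
  have hcardP : 0 < Nat.card P := Nat.card_pos
  have hg0 : 0 < 2 * Nat.card P := by omega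
  have hpow := H799.Jb_pow hP hb.idem hb.mem.2 ha hba
  obtain ⟨B, J, hB, hBB, hBb, hJc, hJ, hg⟩ := exists_BJ S.ΓA_mul hb hg0 hpow
  set ι := incl k S.ΓA with hι
  have hιinj : Function.Injective ι := incl_injective S.ΓA
  have hmapT : (⊤ : Subgroup S.ΓA).map S.ΓA.subtype = S.ΓA := by
    rw [← MonoidHom.range_eq_map, Subgroup.range_subtype]
  have hmapF : (S.AF F).map S.ΓA.subtype = S.ΓF F ⊓ S.ΓA := by
    unfold AF
    rw [Subgroup.subgroupOf_map_subtype]
  have hf1 : ι f ∈ SubAlg k (S.ΓF F ⊓ S.ΓA) := by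
    rw [← hmapF]
    exact incl_mem_map hf
  have hff1 : ι f * ι f = ι f := by rw [← map_mul, hff]
  have hfS1 : ∀ y ∈ SubAlg k (S.ΓF F ⊓ S.ΓA), ∃ c : k, ι f * y * ι f = c • ι f := by
    intro y hy
    rw [← hmapF] at hy
    obtain ⟨y', hy', rfl⟩ := exists_incl_map hy
    obtain ⟨c, hc⟩ := hfS y' hy'
    exact ⟨c, by rw [← map_mul, ← map_mul, hc, map_smul]⟩
  have hfn1 : gp k S.z * ι f = - ι f := by
    have h1 := congrArg ι hfn
    rwa [map_mul, map_neg, hι, incl_single] at h1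
  have hbF1 : ι b ∈ Fix (cj k Γ) S.ΓA := by
    have h1 := (incl_mem_Fix_iff S.ΓA ⊤ b).2 hb.mem.2
    rwa [hmapT] at h1
  have key := S.finrank_corner_le h2 F hf1 hff1 hfn1 hfS1 (incl_mem S.ΓA b) hbF1 hBb hJc hB hBB hJ hg
  have hle : (crn k (b * f) (b * f)).map ι.toLinearMap ≤
      Submodule.map ((LinearMap.mulLeft k (ι b * ι f)).comp (LinearMap.mulRight k (ι b * ι f)))
        (Subalgebra.toSubmodule (SubAlg k S.ΓA)) := by
    rintro _ ⟨x, hx, rfl⟩
    have hx' : x ∈ crn k (b * f) (b * f) := hx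
    rw [mem_crn] at hx'
    obtain ⟨y, rfl⟩ := hx'
    refine ⟨ι y, incl_mem S.ΓA y, ?_⟩
    show (ι b * ι f) * (ι y * (ι b * ι f)) = ι (b * f * y * (b * f))
    simp only [map_mul, mul_assoc]
  have hfd : FiniteDimensional k (MonoidAlgebra k Γ) :=
    Module.Finite.equiv (MonoidAlgebra.coeffLinearEquiv k (M := Γ) (S := k)).symm
  have h5 := Submodule.finrank_mono hle
  have h6 : finrank k ((crn k (b * f) (b * f)).map ι.toLinearMap) =
      finrank k (crn k (b * f) (b * f)) :=
    finrank_map_of_inj' _ _ (fun x y hxy => Subtype.ext (hιinj hxy))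
  rw [h6] at h5
  refine h5.trans (key.trans ?_)
  unfold CC
  have e : 2 * (2 * Nat.card P) = 4 * Nat.card P := by ring
  rw [e]
  exact Nat.le_add_right _ _

end SpinStr

end Vale.Agent.P180.R2.H589

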