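import Vale.Agent.P180.R2.H589.Dim

set_option linter.unusedSectionVars false

/-!
P180: double covers of symmetric groups, with lifts of the transpositions, and the super-conjugation.
-/

namespace Vale.Agent.P180.R2.H589

open Equiv Finset
open Vale.Agent.P180

/-- A double cover of the symmetric group on `α` with canonical lifts of the transpositions. -/
structure SpinStr (α : Type) [Fintype α] [DecidableEq α] (Γ : Type) [Group Γ] where
  /-- the projection -/
  π : Γ →* Perm α
  /-- the central involution -/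
  z : Γ
  z_ne : z ≠ 1
  z_sq : z * z = 1
  z_comm : ∀ g, z * g = g * z
  ker : ∀ g, π g = 1 ↔ g = 1 ∨ g = z
  /-- the lifts of the transpositions -/
  τ : α → α → Γ
  π_τ : ∀ {i j}, i ≠ j → π (τ i j) = swap i j
  τ_symm : ∀ {i j}, i ≠ j → τ j i = z * τ i j
  conj : ∀ {i j}, i ≠ j → ∀ g, g * τ i j * g⁻¹ =
    (if Perm.sign (π g) = 1 then 1 else z) * τ (π g i) (π g j)

namespace SpinStr

variable {α : Type} [Fintype α] [DecidableEq α] {Γ : Type} [Group Γ] (S : SpinStr α Γ)

/-- The commutation factor `z ^ (|g||h|)`. -/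
def zz (g h : Γ) : Γ := if Perm.sign (S.π g) = 1 then 1 else if Perm.sign (S.π h) = 1 then 1 else S.z

theorem π_z : S.π S.z = 1 := (S.ker S.z).2 (Or.inr rfl)

theorem z_inv : S.z⁻¹ = S.z := by
  rw [inv_eq_iff_mul_eq_one]; exact S.z_sq

theorem zz_cases (g h : Γ) : S.zz g h = 1 ∨ S.zz g h = S.z := by
  unfold zz
  split_ifs <;> simp

theorem zz_comm (g h x : Γ) : S.zz g h * x = x * S.zz g h := by
  rcases S.zz_cases g h with h1 | h1 <;> rw [h1]
  · simp
  · exact S.z_comm x

theorem zz_sq (g h : Γ) : S.zz g h * S.zz g h = 1 := by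
  rcases S.zz_cases g h with h1 | h1 <;> rw [h1]
  · simp
  · exact S.z_sq

theorem π_zz (g h : Γ) : S.π (S.zz g h) = 1 := by
  rcases S.zz_cases g h with h1 | h1 <;> rw [h1]
  · simp
  · exact S.π_z

theorem zz_symm (g h : Γ) : S.zz g h = S.zz h g := by
  unfold zz
  split_ifs <;> rfl

theorem sign_cases (g : Γ) : Perm.sign (S.π g) = 1 ∨ Perm.sign (S.π g) = -1 :=
  Int.units_eq_one_or _

theorem zz_mul_left (g g' h : Γ) : S.zz (g * g') h = S.zz g h * S.zz g' h := by
  unfold zz
  rw [map_mul, map_mul]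
  rcases S.sign_cases g with h1 | h1 <;> rcases S.sign_cases g' with h2 | h2 <;>
    rcases S.sign_cases h with h3 | h3 <;> simp [h1, h2, h3, S.z_sq]

theorem zz_mul_right (g h h' : Γ) : S.zz g (h * h') = S.zz g h * S.zz g h' := by
  rw [S.zz_symm, S.zz_mul_left, S.zz_symm h, S.zz_symm h']

theorem zz_one_left (h : Γ) : S.zz 1 h = 1 := by
  unfold zz
  simp

theorem zz_conj (g x h : Γ) : S.zz g (x * h * x⁻¹) = S.zz g h := by
  unfold zz
  rw [map_mul, map_mul, map_mul, map_mul, map_inv, map_inv]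
  have : Perm.sign (S.π x) * Perm.sign (S.π h) * (Perm.sign (S.π x))⁻¹ = Perm.sign (S.π h) := by
    rw [mul_comm (Perm.sign (S.π x)), mul_inv_cancel_right]
  rw [this]

theorem zz_z_mul (g h : Γ) : S.zz g (S.z * h) = S.zz g h := by
  rw [S.zz_mul_right]
  have : S.zz g S.z = 1 := by
    unfold zz
    rw [S.π_z]
    simp
  rw [this, one_mul]

theorem zz_zz_mul (g x y h : Γ) : S.zz g (S.zz x y * h) = S.zz g h := by
  rcases S.zz_cases x y with h1 | h1 <;> rw [h1]
  · rw [one_mul]
  · exact S.zz_z_mul g h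

/-- The super-conjugation. -/
def st : Γ →* MulAut Γ where
  toFun g :=
    { toFun := fun h => S.zz g h * (g * h * g⁻¹)
      invFun := fun h => S.zz g h * (g⁻¹ * h * g)
      left_inv := by
        intro h
        show S.zz g (S.zz g h * (g * h * g⁻¹)) * (g⁻¹ * (S.zz g h * (g * h * g⁻¹)) * g) = h
        rw [S.zz_zz_mul, S.zz_conj, ← mul_assoc g⁻¹, ← S.zz_comm g h g⁻¹, mul_assoc (S.zz g h),
          mul_assoc (S.zz g h), ← mul_assoc, S.zz_sq]
        group
      right_inv := by
        intro h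
        show S.zz g (S.zz g h * (g⁻¹ * h * g)) * (g * (S.zz g h * (g⁻¹ * h * g)) * g⁻¹) = h
        have h1 : S.zz g (g⁻¹ * h * g) = S.zz g h := by
          have := S.zz_conj g g⁻¹ h
          rwa [inv_inv] at this
        rw [S.zz_zz_mul, h1, ← mul_assoc g, ← S.zz_comm g h g, mul_assoc (S.zz g h),
          mul_assoc (S.zz g h), ← mul_assoc, S.zz_sq]
        group
      map_mul' := by
        intro h h'
        show S.zz g (h * h') * (g * (h * h') * g⁻¹) =
          S.zz g h * (g * h * g⁻¹) * (S.zz g h' * (g * h' * g⁻¹))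
        rw [S.zz_mul_right, mul_assoc (S.zz g h), mul_assoc (S.zz g h),
          ← mul_assoc (g * h * g⁻¹), ← S.zz_comm g h' (g * h * g⁻¹)]
        group }
  map_one' := by
    ext h
    show S.zz 1 h * (1 * h * 1⁻¹) = h
    rw [S.zz_one_left]
    group
  map_mul' := by
    intro g g'
    ext h
    show S.zz (g * g') h * (g * g' * h * (g * g')⁻¹) =
      S.zz g (S.zz g' h * (g' * h * g'⁻¹)) * (g * (S.zz g' h * (g' * h * g'⁻¹)) * g⁻¹)
    rw [S.zz_zz_mul, S.zz_conj, S.zz_mul_left, ← mul_assoc g (S.zz g' h), ← S.zz_comm g' h g]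
    group

theorem st_apply (g h : Γ) : S.st g h = S.zz g h * (g * h * g⁻¹) := rfl

theorem π_st (g h : Γ) : S.π (S.st g h) = S.π g * S.π h * (S.π g)⁻¹ := by
  rw [st_apply, map_mul, S.π_zz, one_mul, map_mul, map_mul, map_inv]

theorem st_z (g : Γ) : S.st g S.z = S.z := by
  rw [st_apply]
  have : S.zz g S.z = 1 := by
    unfold zz
    rw [S.π_z]
    simp
  rw [this, one_mul, ← S.z_comm, mul_inv_cancel_right]

theorem z_st (h : Γ) : S.st S.z h = h := by
  rw [st_apply]
  have : S.zz S.z h = 1 := by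
    unfold zz
    rw [S.π_z]
    simp
  rw [this, one_mul, S.z_comm, mul_inv_cancel_right]

theorem sign_τ {i j : α} (hij : i ≠ j) : Perm.sign (S.π (S.τ i j)) = -1 := by
  rw [S.π_τ hij, Perm.sign_swap hij]

theorem st_τ (g : Γ) {i j : α} (hij : i ≠ j) :
    S.st g (S.τ i j) = S.τ (S.π g i) (S.π g j) := by
  rw [st_apply, S.conj hij, ← mul_assoc]
  have h1 : S.zz g (S.τ i j) = if Perm.sign (S.π g) = 1 then 1 else S.z := by
    unfold zz
    rw [S.sign_τ hij]
    simp
  rw [h1]
  split_ifs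
  · simp
  · rw [S.z_sq, one_mul]

/-- Elements which fix `i` and `j` commute (in the super sense) with `τ i j`. -/
theorem τ_st_of_fix {i j : α} (hij : i ≠ j) {x : Γ} (hi : S.π x i = i) (hj : S.π x j = j) :
    S.st (S.τ i j) x = x := by
  have h1 := S.st_τ x hij
  rw [hi, hj, st_apply] at h1
  rw [st_apply, S.zz_symm]
  set c := S.zz x (S.τ i j) with hc
  have hcc : ∀ y, c * y = y * c := fun y => S.zz_comm _ _ y
  have hc2 : c * c = 1 := S.zz_sq _ _
  -- `c * (x τ x⁻¹) = τ`
  have h2 : x * S.τ i j = c * S.τ i j * x := by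
    have h3 : c * (c * (x * S.τ i j * x⁻¹)) = c * S.τ i j := by rw [h1]
    rw [← mul_assoc, hc2, one_mul] at h3
    rw [← h3]; group
  have h3 : S.τ i j * x = c * (x * S.τ i j) := by
    rw [h2, ← mul_assoc, ← mul_assoc, hc2, one_mul]
  rw [h3, mul_assoc, mul_inv_cancel_right, ← mul_assoc, hc2, one_mul]

/-- The preimage of `Sym(F)`. -/
def ΓF (F : Finset α) : Subgroup Γ := (symF F).comap S.π

theorem mem_ΓF {F : Finset α} {g : Γ} : g ∈ S.ΓF F ↔ IsF F (S.π g) := Iff.rfl

theorem z_mem_ΓF (F : Finset α) : S.z ∈ S.ΓF F := by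
  rw [mem_ΓF, S.π_z]
  intro x _
  rfl

theorem τ_mem_ΓF {F : Finset α} {i j : α} (hi : i ∈ F) (hj : j ∈ F) (hij : i ≠ j) :
    S.τ i j ∈ S.ΓF F := by
  rw [mem_ΓF, S.π_τ hij]
  intro x hx
  apply swap_apply_of_ne_of_ne
  · rintro rfl; exact hx hi
  · rintro rfl; exact hx hj

/-- Induction for elements of `ΓF F`. -/
theorem ΓF_induction {F : Finset α} {P : Γ → Prop} (h1 : P 1) (hz : P S.z)
    (hτ : ∀ i ∈ F, ∀ j ∈ F, i ≠ j → ∀ h, P h → P (S.τ i j * h)) : ∀ h ∈ S.ΓF F, P h := by
  have key : ∀ n : ℕ, ∀ h ∈ S.ΓF F, (S.π h).support.card ≤ n → P h := by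
    intro n
    induction n with
    | zero =>
      intro h _ hn
      have h2 : S.π h = 1 := by
        rw [← Perm.support_eq_empty_iff, ← Finset.card_eq_zero]
        omega
      rcases (S.ker h).1 h2 with rfl | rfl
      · exact h1
      · exact hz
    | succ n ih =>
      intro h hh hn
      by_cases h2 : S.π h = 1
      · rcases (S.ker h).1 h2 with rfl | rfl
        · exact h1
        · exact hz
      · obtain ⟨i, hi⟩ : ∃ i, S.π h i ≠ i := by
          by_contra hcon
          push Not at hcon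
          exact h2 (Perm.ext hcon)
        have hiF : i ∈ F := by
          by_contra hc
          exact hi (hh i hc)
        have hjF : S.π h i ∈ F := (IsF.mem hh).2 hiF
        have e : h = S.τ i (S.π h i) * ((S.τ i (S.π h i))⁻¹ * h) := by group
        rw [e]
        apply hτ i hiF _ hjF (Ne.symm hi)
        apply ih
        · exact (S.ΓF F).mul_mem ((S.ΓF F).inv_mem (S.τ_mem_ΓF hiF hjF (Ne.symm hi))) hh
        · have h3 : S.π ((S.τ i (S.π h i))⁻¹ * h) = swap i (S.π h i) * S.π h := by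
            rw [map_mul, map_inv, S.π_τ (Ne.symm hi), Equiv.swap_inv]
          rw [h3]
          have := Perm.card_support_swap_mul hi
          omega
  intro h hh
  exact key _ h hh le_rfl

/-- Elements over disjoint sets of points commute in the super sense. -/
theorem st_of_disjoint {F : Finset α} {x : Γ} (hx : ∀ i ∈ F, S.π x i = i) :
    ∀ h ∈ S.ΓF F, S.st h x = x := by
  refine S.ΓF_induction (P := fun h => S.st h x = x) ?_ ?_ ?_
  · rw [map_one]; rfl
  · exact S.z_st x
  · intro i hi j hj hij h hh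
    rw [map_mul, MulAut.mul_apply, hh, S.τ_st_of_fix hij (hx i hi) (hx j hj)]

end SpinStr

end Vale.Agent.P180.R2.H589
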