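import Vale.Agent.P180.R2.H589.Spin.Str

set_option linter.unusedSectionVars false

/-!
P180: the super-centralizer of the twisted group algebra of `Sym(F)`.
-/

namespace Vale.Agent.P180.R2.H589

open Equiv Finset
open Vale.Agent.P180

theorem perm_apply_inv {α : Type*} (p : Perm α) (x : α) : p (p⁻¹ x) = x := by simp

theorem perm_inv_apply {α : Type*} (p : Perm α) (x : α) : p⁻¹ (p x) = x := by simp

namespace SpinStr

variable {α : Type} [Fintype α] [DecidableEq α] {Γ : Type} [Group Γ] [Fintype Γ] [DecidableEq Γ]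
  (S : SpinStr α Γ) {k : Type*} [Field k]

/-- The action of `Γ` on its group algebra by super-conjugation. -/
noncomputable def sc (k : Type*) [Field k] : Γ →* (MonoidAlgebra k Γ ≃ₐ[k] MonoidAlgebra k Γ) :=
  (MonoidAlgebra.domCongrAut (R := k) (A := k)).comp S.st

theorem sc_single (g x : Γ) (r : k) :
    S.sc k g (MonoidAlgebra.single x r) = MonoidAlgebra.single (S.st g x) r := by
  show MonoidAlgebra.domCongr k k (S.st g) (MonoidAlgebra.single x r) = _
  rw [MonoidAlgebra.domCongr_single]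

theorem sc_coeff (g x : Γ) (a : MonoidAlgebra k Γ) :
    (S.sc k g a).coeff (S.st g x) = a.coeff x := by
  show (MonoidAlgebra.domCongr k k (S.st g) a).coeff (S.st g x) = _
  rw [MonoidAlgebra.coeff_domCongr, MulEquiv.symm_apply_apply]

theorem mem_Fix_sc_iff {H : Subgroup Γ} {a : MonoidAlgebra k Γ} :
    a ∈ Fix (S.sc k) H ↔ ∀ h ∈ H, ∀ x, a.coeff (S.st h x) = a.coeff x := by
  constructor
  · intro ha h hh x
    have h1 := S.sc_coeff h x a
    rwa [ha h hh] at h1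
  · intro ha h hh
    ext x
    obtain ⟨y, rfl⟩ := (S.st h).surjective x
    rw [S.sc_coeff, ha h hh]

/-- The elements on which `z` acts as `-1`. -/
def Neg (a : MonoidAlgebra k Γ) : Prop := ∀ x, a.coeff (S.z * x) = - a.coeff x

theorem Neg.add {a b : MonoidAlgebra k Γ} (ha : S.Neg a) (hb : S.Neg b) : S.Neg (a + b) := by
  intro x
  rw [MonoidAlgebra.coeff_add, Finsupp.add_apply, Finsupp.add_apply, ha, hb]
  ring

theorem Neg.smul {a : MonoidAlgebra k Γ} (c : k) (ha : S.Neg a) : S.Neg (c • a) := by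
  intro x
  rw [MonoidAlgebra.coeff_smul, Finsupp.smul_apply, Finsupp.smul_apply, ha]
  simp

theorem Neg.sub {a b : MonoidAlgebra k Γ} (ha : S.Neg a) (hb : S.Neg b) : S.Neg (a - b) := by
  intro x
  rw [MonoidAlgebra.coeff_sub, Finsupp.sub_apply, Finsupp.sub_apply, ha, hb]
  ring

theorem neg_iff {a : MonoidAlgebra k Γ} : S.Neg a ↔ MonoidAlgebra.single S.z 1 * a = - a := by
  constructor
  · intro h
    ext x
    rw [MonoidAlgebra.coeff_single_mul_eq_mul_coeff (m₂ := S.z⁻¹ * x), one_mul]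
    · rw [MonoidAlgebra.coeff_neg, Finsupp.neg_apply]
      have := h (S.z⁻¹ * x)
      rw [mul_inv_cancel_left] at this
      rw [this, neg_neg]
    · intro m' _
      exact eq_inv_mul_iff_mul_eq.symm
  · intro h x
    have h1 := congrArg (fun y => y.coeff (S.z * x)) h
    rw [MonoidAlgebra.coeff_single_mul_eq_mul_coeff (m₂ := x), one_mul] at h1
    · rw [h1, MonoidAlgebra.coeff_neg, Finsupp.neg_apply, neg_neg]
    · intro m' _
      exact mul_right_inj S.z

theorem Neg.mul_right {a : MonoidAlgebra k Γ} (ha : S.Neg a) (b : MonoidAlgebra k Γ) :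
    S.Neg (a * b) := by
  rw [S.neg_iff] at ha ⊢
  rw [← mul_assoc, ha, neg_mul]

/-- The sum of the lifts of the transpositions. -/
noncomputable def Y (k : Type*) [Field k] (F : Finset α) (t : α) : MonoidAlgebra k Γ :=
  ∑ f ∈ F, MonoidAlgebra.single (S.τ t f) 1

/-- Generators of the super-centralizer. -/
def gens (k : Type*) [Field k] (F : Finset α) : Set (MonoidAlgebra k Γ) :=
  {a | S.Neg a ∧ a ∈ SubAlg k (S.ΓF F) ∧ a ∈ Fix (S.sc k) (S.ΓF F)} ∪
  {a | ∃ t ∉ F, a = S.Y k F t} ∪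
  {a | ∃ σ : Γ, (∀ x ∈ F, S.π σ x = x) ∧ a = MonoidAlgebra.single σ 1}

/-- The subalgebra generated by them. -/
noncomputable def Cn (k : Type*) [Field k] (F : Finset α) : Subalgebra k (MonoidAlgebra k Γ) :=
  Algebra.adjoin k (S.gens k F)

/-- Super-conjugacy under `ΓF`. -/
def Cj (F : Finset α) (g g' : Γ) : Prop := ∃ h ∈ S.ΓF F, g' = S.st h g

theorem Cj.refl (F : Finset α) (g : Γ) : S.Cj F g g :=
  ⟨1, (S.ΓF F).one_mem, by rw [map_one]; rfl⟩

theorem Cj.symm {F : Finset α} {g g' : Γ} (h : S.Cj F g g') : S.Cj F g' g := by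
  obtain ⟨h, hh, rfl⟩ := h
  refine ⟨h⁻¹, (S.ΓF F).inv_mem hh, ?_⟩
  rw [← MulAut.mul_apply, ← map_mul, inv_mul_cancel, map_one]; rfl

theorem Cj.trans {F : Finset α} {g g' g'' : Γ} (h : S.Cj F g g') (h' : S.Cj F g' g'') :
    S.Cj F g g'' := by
  obtain ⟨h, hh, rfl⟩ := h
  obtain ⟨h', hh', rfl⟩ := h'
  refine ⟨h' * h, (S.ΓF F).mul_mem hh' hh, ?_⟩
  rw [map_mul]; rfl

theorem Cj.z_mul {F : Finset α} {g g' : Γ} (h : S.Cj F g g') : S.Cj F (S.z * g) (S.z * g') := by
  obtain ⟨h, hh, rfl⟩ := h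
  exact ⟨h, hh, by rw [map_mul, S.st_z]⟩

theorem Cj.dg {F : Finset α} {g g' : Γ} (h : S.Cj F g g') :
    dg F (S.π g') = dg F (S.π g) := by
  obtain ⟨h, hh, rfl⟩ := h
  apply dg_conj
  exact ⟨S.π h, hh, by rw [S.π_st]⟩

theorem dg_z_mul {F : Finset α} (g : Γ) : dg F (S.π (S.z * g)) = dg F (S.π g) := by
  rw [map_mul, S.π_z, one_mul]

theorem coeff_mul_single (M : MonoidAlgebra k Γ) (s g : Γ) :
    (M * MonoidAlgebra.single s 1).coeff g = M.coeff (g * s⁻¹) := by
  rw [MonoidAlgebra.coeff_mul_single_eq_coeff_mul (m₂ := g * s⁻¹), mul_one]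
  intro m' _
  exact eq_mul_inv_iff_mul_eq.symm

theorem mul_Y_coeff (F : Finset α) (t : α) (M : MonoidAlgebra k Γ) (g : Γ) :
    (M * S.Y k F t).coeff g = ∑ f ∈ F, M.coeff (g * (S.τ t f)⁻¹) := by
  unfold Y
  rw [mul_sum, MonoidAlgebra.coeff_sum, Finsupp.finsetSum_apply]
  apply sum_congr rfl
  intro f _
  rw [coeff_mul_single]

theorem π_mul_τ_inv {t f : α} (h : t ≠ f) (g : Γ) :
    S.π (g * (S.τ t f)⁻¹) = S.π g * swap t f := by
  rw [map_mul, map_inv, S.π_τ h, Equiv.swap_inv]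

/-- Removing a point of `F`: the conjugating elements can be chosen to fix this point. -/
theorem exists_conj_fix {F : Finset α} {g₂ x : Γ} {f : α} (hf : f ∈ F) (hg : S.π g₂ f = f)
    {h : Γ} (hh : h ∈ S.ΓF F) (hx : x = S.st h g₂) (hxf : S.π x f = f) :
    ∃ h' ∈ S.ΓF F, S.π h' f = f ∧ x = S.st h' g₂ := by
  by_cases hhf : S.π h f = f
  · exact ⟨h, hh, hhf, hx⟩
  · -- `f' = h⁻¹ f` is fixed by `g₂`
    set f' := (S.π h)⁻¹ f with hf'
    have hf'F : f' ∈ F := (IsF.mem (IsF.inv hh)).2 hf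
    have hne : f ≠ f' := by
      intro h1
      apply hhf
      rw [hf'] at h1
      have := congrArg (S.π h) h1
      rwa [perm_apply_inv] at this
    have hg' : S.π g₂ f' = f' := by
      have h1 : S.π x f = f := hxf
      rw [hx, S.π_st, Perm.mul_apply, Perm.mul_apply, ← hf'] at h1
      have := congrArg (⇑(S.π h)⁻¹) h1
      rwa [perm_inv_apply, ← hf'] at this
    refine ⟨h * S.τ f f', (S.ΓF F).mul_mem hh (S.τ_mem_ΓF hf hf'F hne), ?_, ?_⟩
    · rw [map_mul, Perm.mul_apply, S.π_τ hne, swap_apply_left, hf', perm_apply_inv]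
    · rw [map_mul, MulAut.mul_apply, S.τ_st_of_fix hne hg hg', hx]

/-- Products with `τ t f`, when both factors are conjugate. -/
theorem cj_of_cj_mul {F : Finset α} {t : α} (ht : t ∉ F) {g g' : Γ} (hgt : S.π g t ∈ F)
    (hgt' : S.π g' t ∈ F)
    (hc : S.Cj F (g * (S.τ t (S.π g t))⁻¹) (g' * (S.τ t (S.π g' t))⁻¹)) : S.Cj F g g' := by
  obtain ⟨h, hh, he⟩ := hc
  set f := S.π g t with hf
  set f' := S.π g' t with hf'
  have htf : t ≠ f := fun h => ht (h ▸ hgt)
  have htf' : t ≠ f' := fun h => ht (h ▸ hgt')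
  have a1 : S.π (g * (S.τ t f)⁻¹) f = f := by
    rw [S.π_mul_τ_inv htf, mul_swap_apply_f]
  have a2 : S.π (g' * (S.τ t f')⁻¹) f' = f' := by
    rw [S.π_mul_τ_inv htf', mul_swap_apply_f]
  have hht : S.π h t = t := hh t ht
  -- `f'' = h⁻¹ f'`
  set f'' := (S.π h)⁻¹ f' with hf''
  have b1 : f'' ∈ F := (IsF.mem (IsF.inv hh)).2 hgt'
  have hhf'' : S.π h f'' = f' := by rw [hf'', perm_apply_inv]
  have htf'' : t ≠ f'' := fun h => ht (h ▸ b1)
  have a3 : S.π (g * (S.τ t f)⁻¹) f'' = f'' := by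
    have h1 := a2
    rw [he, S.π_st, Perm.mul_apply, Perm.mul_apply, ← hf''] at h1
    have := congrArg (⇑(S.π h)⁻¹) h1
    rwa [perm_inv_apply, ← hf''] at this
  have d1 : g' = S.st h (g * (S.τ t f)⁻¹ * S.τ t f'') := by
    rw [map_mul, S.st_τ h htf'', hht, hhf'', ← he, inv_mul_cancel_right]
  by_cases hff : f = f''
  · rw [← hff, inv_mul_cancel_right] at d1
    exact ⟨h, hh, d1⟩
  · refine ⟨h * S.τ f f'', (S.ΓF F).mul_mem hh (S.τ_mem_ΓF hgt b1 hff), ?_⟩
    rw [map_mul, MulAut.mul_apply]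
    have e1 : S.st (S.τ f f'') g = g * (S.τ t f)⁻¹ * S.τ t f'' := by
      have e2 : g = (g * (S.τ t f)⁻¹) * S.τ t f := by rw [inv_mul_cancel_right]
      conv_lhs => rw [e2]
      rw [map_mul, S.τ_st_of_fix hff a1 a3, S.st_τ _ htf, S.π_τ hff,
        swap_apply_of_ne_of_ne htf htf'', swap_apply_left]
    rw [e1]
    exact d1

/-- `g` is not super-conjugate to `z g`. -/
def Good (F : Finset α) (g : Γ) : Prop := ¬ S.Cj F g (S.z * g)

theorem good_remove {F : Finset α} {t : α} (ht : t ∉ F) {g : Γ} (hgt : S.π g t ∈ F)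
    (hg : S.Good F g) : S.Good F (g * (S.τ t (S.π g t))⁻¹) := by
  intro hc
  apply hg
  have h1 : S.π (S.z * g) t = S.π g t := by rw [map_mul, S.π_z, one_mul]
  apply S.cj_of_cj_mul ht hgt (by rwa [h1])
  rwa [h1, mul_assoc]

end SpinStr

end Vale.Agent.P180.R2.H589
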