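import Vale.Agent.P180.R2.H589.Spin.Gen
import Vale.Agent.P180.R2.H589.AltC

set_option linter.unusedSectionVars false

/-!
P180: the corner bound for spin blocks of double covers of alternating groups.
-/

namespace Vale.Agent.P180.R2.H589

open Equiv Finset Module
open Vale.Agent.P180 Vale.Agent.P180.H768.Gd

/-- Elements which are scalars under `f`. -/
theorem block_scalar {k : Type*} [Field k] {G : Type*} [Group G] [Finite G] {H : Subgroup G}
    {f E : MonoidAlgebra k G} (hf : f ∈ SubAlg k H) (hff : f * f = f)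
    {s : Finset H} {x y : H → MonoidAlgebra k G} (hx : ∀ i, x i ∈ SubAlg k H)
    (hE : E = ∑ i ∈ s, x i * f * y i) (hEF : E ∈ Fix (cj k G) H) {z : MonoidAlgebra k G}
    (hz : z ∈ ZAlg k H) {c : k} (hc : f * z * f = c • f) : E * z = c • E := by
  have hfz : f * z = z * f := commute_of_mem hf hz.2
  have hc' : z * f = c • f := by
    rw [← hc, hfz, mul_assoc, hff]
  have hzE : E * z = z * E := (commute_of_mem hz.1 hEF).symm
  rw [hzE, hE, smul_sum, mul_sum]
  apply Finset.sum_congr rfl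
  intro i _
  have hxz : x i * z = z * x i := commute_of_mem (hx i) hz.2
  calc z * (x i * f * y i) = (z * x i) * f * y i := by simp only [mul_assoc]
    _ = (x i * (z * f)) * y i := by rw [← hxz]; simp only [mul_assoc]
    _ = _ := by rw [hc', mul_smul_comm, smul_mul_assoc]

namespace SpinStr

variable {α : Type} [Fintype α] [DecidableEq α] {Γ : Type} [Group Γ] [Fintype Γ] [DecidableEq Γ]
  (S : SpinStr α Γ) {k : Type*} [Field k]

theorem sc_of_ΓA {h : Γ} (hh : h ∈ S.ΓA) (x : MonoidAlgebra k Γ) : S.sc k h x = cj k Γ h x := by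
  refine SuppIn.induction (S := Set.univ) (P := fun x => S.sc k h x = cj k Γ h x)
    (fun _ _ => trivial) ?_ ?_ ?_
  · rw [map_zero, map_zero]
  · intro a b ha hb; rw [map_add, map_add, ha, hb]
  · intro g _ c
    rw [map_smul, map_smul, sc_single, cj_single]
    congr 2
    rw [st_apply]
    have h1 : S.zz h g = 1 := by
      unfold zz
      rw [if_pos (S.mem_ΓA.1 hh)]
    rw [h1, one_mul]

theorem sc_of_odd {s : Γ} (hs : s ∉ S.ΓA) {x : MonoidAlgebra k Γ} (hx : Odd' S.ΓA x) :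
    S.sc k s x = gp k S.z * cj k Γ s x := by
  refine SuppIn.induction (P := fun x => S.sc k s x = gp k S.z * cj k Γ s x) hx ?_ ?_ ?_
  · rw [map_zero, map_zero, mul_zero]
  · intro a b ha hb; rw [map_add, map_add, ha, hb, mul_add]
  · intro g hg c
    rw [map_smul, map_smul, sc_single, cj_single, mul_smul_comm, ← gp_mul]
    congr 2
    rw [st_apply]
    have h1 : S.zz s g = S.z := by
      unfold zz
      rw [if_neg (fun h => hs (S.mem_ΓA.2 h)), if_neg (fun h => hg (S.mem_ΓA.2 h))]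
    rw [h1]

theorem mem_Fix_sc_of {F : Finset α} {s : Γ} (hs : s ∈ S.ΓF F) (hsA : s ∉ S.ΓA)
    {x : MonoidAlgebra k Γ} (hx : x ∈ Fix (cj k Γ) (S.ΓF F ⊓ S.ΓA)) (hxs : S.sc k s x = x) :
    x ∈ Fix (S.sc k) (S.ΓF F) := by
  intro h hh
  by_cases hA : h ∈ S.ΓA
  · rw [S.sc_of_ΓA hA]
    exact hx h ⟨hh, hA⟩
  · have h1 : h * s⁻¹ ∈ S.ΓA := S.ΓA_mul _ _ hA (fun h' => hsA (by simpa using S.ΓA.inv_mem h'))
    have h2 : h = (h * s⁻¹) * s := by group
    rw [h2, map_mul]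
    show S.sc k (h * s⁻¹) (S.sc k s x) = x
    rw [hxs, S.sc_of_ΓA h1]
    exact hx _ ⟨(S.ΓF F).mul_mem hh ((S.ΓF F).inv_mem hs), h1⟩

theorem mem_Fix_cj_of {F : Finset α} {s : Γ} (hs : s ∈ S.ΓF F) (hsA : s ∉ S.ΓA)
    {x : MonoidAlgebra k Γ} (hx : x ∈ Fix (cj k Γ) (S.ΓF F ⊓ S.ΓA)) (hxs : cj k Γ s x = x) :
    x ∈ Fix (cj k Γ) (S.ΓF F) := by
  intro h hh
  by_cases hA : h ∈ S.ΓA
  · exact hx h ⟨hh, hA⟩
  · have h1 : h * s⁻¹ ∈ S.ΓA := S.ΓA_mul _ _ hA (fun h' => hsA (by simpa using S.ΓA.inv_mem h'))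
    have h2 : h = (h * s⁻¹) * s := by group
    rw [h2, map_mul_act, hxs]
    exact hx _ ⟨(S.ΓF F).mul_mem hh ((S.ΓF F).inv_mem hs), h1⟩

/-- The space `T`. -/
noncomputable def TT (F : Finset α) (E B : MonoidAlgebra k Γ) : Submodule k (MonoidAlgebra k Γ) where
  carrier := {c | c ∈ SubAlg k S.ΓA ∧ c ∈ Fix (cj k Γ) (S.ΓF F ⊓ S.ΓA) ∧ E * c = c ∧ B * c = c ∧
    S.Neg c}
  add_mem' := by
    rintro a b ⟨h1, h2, h3, h4, h5⟩ ⟨h1', h2', h3', h4', h5'⟩
    exact ⟨Subalgebra.add_mem _ h1 h1', Subalgebra.add_mem _ h2 h2', by rw [mul_add, h3, h3'],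
      by rw [mul_add, h4, h4'], Neg.add S h5 h5'⟩
  zero_mem' := ⟨Subalgebra.zero_mem _, Subalgebra.zero_mem _, mul_zero _, mul_zero _,
    fun x => by simp⟩
  smul_mem' := by
    rintro c a ⟨h1, h2, h3, h4, h5⟩
    exact ⟨Subalgebra.smul_mem _ h1 c, Subalgebra.smul_mem _ h2 c, by rw [mul_smul_comm, h3],
      by rw [mul_smul_comm, h4], Neg.smul S c h5⟩

theorem mem_TT {F : Finset α} {E B c : MonoidAlgebra k Γ} : c ∈ S.TT F E B ↔
    c ∈ SubAlg k S.ΓA ∧ c ∈ Fix (cj k Γ) (S.ΓF F ⊓ S.ΓA) ∧ E * c = c ∧ B * c = c ∧ S.Neg c :=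
  Iff.rfl

theorem Neg.mul_left {a : MonoidAlgebra k Γ} (ha : S.Neg a) (b : MonoidAlgebra k Γ) :
    S.Neg (b * a) := by
  rw [S.neg_iff] at ha ⊢
  have h1 : MonoidAlgebra.single S.z (1 : k) * b = b * MonoidAlgebra.single S.z 1 := S.gp_z_comm b
  rw [← mul_assoc, h1, mul_assoc, ha, mul_neg]

theorem cj_Neg {a : MonoidAlgebra k Γ} (ha : S.Neg a) (g : Γ) : S.Neg (cj k Γ g a) := by
  rw [S.neg_iff] at ha ⊢
  have h1 : MonoidAlgebra.single S.z (1 : k) = cj k Γ g (MonoidAlgebra.single S.z 1) := by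
    rw [cj_single]
    congr 1
    rw [← S.z_comm, mul_inv_cancel_right]
  rw [h1, ← map_mul, ha, map_neg]

/-- The space `M`. -/
noncomputable def Mb (F : Finset α) (E B : MonoidAlgebra k Γ) : Submodule k (MonoidAlgebra k Γ) :=
  Submodule.map (LinearMap.mulLeft k (B * E)) (S.SC k F)

theorem mem_Mb {F : Finset α} {E B c : MonoidAlgebra k Γ} (hc : c ∈ S.SC k F) (h1 : E * c = c)
    (h2 : B * c = c) : c ∈ S.Mb F E B := by
  refine ⟨c, hc, ?_⟩
  show B * E * c = c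
  rw [mul_assoc, h1, h2]

theorem cj_mem_Fix_inf {F : Finset α} {s : Γ} (hs : s ∈ S.ΓF F) {x : MonoidAlgebra k Γ}
    (hx : x ∈ Fix (cj k Γ) (S.ΓF F ⊓ S.ΓA)) : cj k Γ s x ∈ Fix (cj k Γ) (S.ΓF F ⊓ S.ΓA) := by
  intro h hh
  have h1 : s⁻¹ * h * s ∈ S.ΓF F ⊓ S.ΓA := by
    refine ⟨(S.ΓF F).mul_mem ((S.ΓF F).mul_mem ((S.ΓF F).inv_mem hs) hh.1) hs, ?_⟩
    have := (inferInstance : S.ΓA.Normal).conj_mem h hh.2 s⁻¹
    rwa [inv_inv] at this
  have h2 : h * s = s * (s⁻¹ * h * s) := by group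
  rw [← map_mul_act, h2, map_mul_act, hx _ h1]

theorem cj_sq {F : Finset α} {s : Γ} (hs : s ∈ S.ΓF F) (hsA : s ∉ S.ΓA) {x : MonoidAlgebra k Γ}
    (hx : x ∈ Fix (cj k Γ) (S.ΓF F ⊓ S.ΓA)) : cj k Γ s (cj k Γ s x) = x := by
  rw [← map_mul_act]
  exact hx _ ⟨(S.ΓF F).mul_mem hs hs, S.ΓA_mul _ _ hsA hsA⟩

theorem cj_even {s : Γ} {x : MonoidAlgebra k Γ} (hx : x ∈ SubAlg k S.ΓA) :
    cj k Γ s x ∈ SubAlg k S.ΓA := by
  intro g hg
  rw [cj_coeff] at hg
  have h1 := hx _ hg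
  have := (inferInstance : S.ΓA.Normal).conj_mem _ h1 s
  have e : s * (s⁻¹ * g * s) * s⁻¹ = g := by group
  rwa [e] at this

/-- Case of an `s`-invariant block. -/
theorem finrank_TT_Q (h2 : (2 : k) ≠ 0) {F : Finset α} {s : Γ} (hs : s ∈ S.ΓF F) (hsA : s ∉ S.ΓA)
    {E B w : MonoidAlgebra k Γ} (hBc : ∀ x, x * B = B * x)
    (hEs : cj k Γ s E = E) (hwo : Odd' S.ΓA w) (hwF : w ∈ Fix (cj k Γ) (S.ΓF F ⊓ S.ΓA))
    (hEw : E * w = w) {a : k} (ha : a ≠ 0) (hww : w * w = a • E) (hws : cj k Γ s w = w) :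
    finrank k (S.TT F E B) ≤ 2 * finrank k (S.Mb F E B) := by
  classical
  have hfd : FiniteDimensional k (MonoidAlgebra k Γ) :=
    Module.Finite.equiv (MonoidAlgebra.coeffLinearEquiv k (M := Γ) (S := k)).symm
  have hBs : cj k Γ s B = B := by
    have h1 : B ∈ Fix (cj k Γ) ⊤ := by
      rw [mem_Fix_cj_iff]
      intro h _
      exact hBc _
    exact h1 s trivial
  have hT : ∀ c ∈ S.TT F E B, cj k Γ s c ∈ S.TT F E B := by
    intro c hc
    obtain ⟨h1, h3, h4, h5, h6⟩ := hc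
    refine ⟨S.cj_even h1, S.cj_mem_Fix_inf hs h3, ?_, ?_, S.cj_Neg h6 s⟩
    · conv_lhs => rw [← hEs]
      rw [← map_mul, h4]
    · conv_lhs => rw [← hBs]
      rw [← map_mul, h5]
  have hp : ∀ c ∈ S.TT F E B, c + cj k Γ s c ∈ S.Mb F E B := by
    intro c hc
    have h1 := Submodule.add_mem _ hc (hT c hc)
    obtain ⟨h7, h8, h9, h10, h11⟩ := h1
    refine S.mem_Mb ⟨?_, h11⟩ h9 h10
    apply S.mem_Fix_sc_of hs hsA h8
    rw [S.sc_of_even h7, map_add, S.cj_sq hs hsA hc.2.1, add_comm]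
  have hm : ∀ c ∈ S.TT F E B, w * (c - cj k Γ s c) ∈ S.Mb F E B := by
    intro c hc
    have h1 := Submodule.sub_mem _ hc (hT c hc)
    obtain ⟨h7, h8, h9, h10, h11⟩ := h1
    have hn : S.Neg (w * (c - cj k Γ s c)) := Neg.mul_left S h11 w
    refine S.mem_Mb ⟨?_, hn⟩ ?_ ?_
    · apply S.mem_Fix_sc_of hs hsA (Subalgebra.mul_mem _ hwF h8)
      have ho : Odd' S.ΓA (w * (c - cj k Γ s c)) := hwo.mul_mem h7
      rw [S.sc_of_odd hsA ho, map_mul, hws, map_sub, S.cj_sq hs hsA hc.2.1]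
      have h12 := S.neg_iff.1 hn
      have h13 : w * (cj k Γ s c - c) = - (w * (c - cj k Γ s c)) := by
        rw [← mul_neg, neg_sub]
      rw [h13, mul_neg]
      have h14 : gp k S.z * (w * (c - cj k Γ s c)) = - (w * (c - cj k Γ s c)) := h12
      rw [h14, neg_neg]
    · rw [← mul_assoc, hEw]
    · rw [← mul_assoc, ← hBc, mul_assoc, h10]
  let φ : S.TT F E B →ₗ[k] (S.Mb F E B × S.Mb F E B) :=
    { toFun := fun c => (⟨c + cj k Γ s c, hp c c.2⟩, ⟨w * (c - cj k Γ s c), hm c c.2⟩)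
      map_add' := by
        intro c d
        ext1
        · apply Subtype.ext
          show ((c : MonoidAlgebra k Γ) + d) + cj k Γ s (c + d) = (c + cj k Γ s c) + (d + cj k Γ s d)
          rw [map_add]; abel
        · apply Subtype.ext
          show w * (((c : MonoidAlgebra k Γ) + d) - cj k Γ s (c + d)) =
            w * (c - cj k Γ s c) + w * (d - cj k Γ s d)
          rw [map_add]; noncomm_ring
      map_smul' := by
        intro r c
        ext1
        · apply Subtype.ext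
          show r • (c : MonoidAlgebra k Γ) + cj k Γ s (r • (c : MonoidAlgebra k Γ)) =
            r • ((c : MonoidAlgebra k Γ) + cj k Γ s c)
          rw [map_smul, smul_add]
        · apply Subtype.ext
          show w * (r • (c : MonoidAlgebra k Γ) - cj k Γ s (r • (c : MonoidAlgebra k Γ))) =
            r • (w * ((c : MonoidAlgebra k Γ) - cj k Γ s c))
          rw [map_smul, ← smul_sub, mul_smul_comm] }
  have hφ : Function.Injective φ := by
    rw [← LinearMap.ker_eq_bot, LinearMap.ker_eq_bot']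
    intro c hc
    have e1 : (c : MonoidAlgebra k Γ) + cj k Γ s c = 0 := by
      have := congrArg (fun x => ((x.1 : S.Mb F E B) : MonoidAlgebra k Γ)) hc
      exact this
    have e2 : w * ((c : MonoidAlgebra k Γ) - cj k Γ s c) = 0 := by
      have := congrArg (fun x => ((x.2 : S.Mb F E B) : MonoidAlgebra k Γ)) hc
      exact this
    have h9 := (Submodule.sub_mem _ c.2 (hT c c.2)).2.2.1
    have e3 : (c : MonoidAlgebra k Γ) - cj k Γ s c = 0 := by
      have h10 : a • ((c : MonoidAlgebra k Γ) - cj k Γ s c) = 0 := by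
        rw [← h9, ← smul_mul_assoc, ← hww, mul_assoc, e2, mul_zero]
      exact (smul_eq_zero.1 h10).resolve_left ha
    have e4 : (2 : k) • (c : MonoidAlgebra k Γ) = 0 := by
      rw [two_smul]
      calc (c : MonoidAlgebra k Γ) + c = (c + cj k Γ s c) + (c - cj k Γ s c) := by abel
        _ = 0 := by rw [e1, e3, add_zero]
    exact Subtype.ext ((smul_eq_zero.1 e4).resolve_left h2)
  have h3 := LinearMap.finrank_le_finrank_of_injective hφ
  rw [Module.finrank_prod] at h3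
  omega

/-- Case of a block which is not `s`-invariant. -/
theorem finrank_TT_M {F : Finset α} {s : Γ} (hs : s ∈ S.ΓF F) (hsA : s ∉ S.ΓA)
    {E B : MonoidAlgebra k Γ} (hBc : ∀ x, x * B = B * x)
    (hEF : E ∈ Fix (cj k Γ) (S.ΓF F ⊓ S.ΓA))
    (h0 : E * cj k Γ s E = 0) :
    finrank k (S.TT F E B) ≤ finrank k (S.Mb F (E + cj k Γ s E) B) := by
  classical
  have hfd : FiniteDimensional k (MonoidAlgebra k Γ) :=
    Module.Finite.equiv (MonoidAlgebra.coeffLinearEquiv k (M := Γ) (S := k)).symm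
  have hBs : cj k Γ s B = B := by
    have h1 : B ∈ Fix (cj k Γ) ⊤ := by
      rw [mem_Fix_cj_iff]
      intro h _
      exact hBc _
    exact h1 s trivial
  have h0' : cj k Γ s E * E = 0 := by
    have := congrArg (cj k Γ s) h0
    rwa [map_mul, S.cj_sq hs hsA hEF, map_zero] at this
  have hEs : ∀ c ∈ S.TT F E B, cj k Γ s E * cj k Γ s c = cj k Γ s c := by
    intro c hc
    rw [← map_mul, hc.2.2.1]
  have e1 : ∀ c ∈ S.TT F E B, E * cj k Γ s c = 0 := by
    intro c hc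
    rw [← hEs c hc, ← mul_assoc, h0, zero_mul]
  have e2 : ∀ c ∈ S.TT F E B, cj k Γ s E * c = 0 := by
    intro c hc
    rw [← hc.2.2.1, ← mul_assoc, h0', zero_mul]
  have hp : ∀ c ∈ S.TT F E B, c + cj k Γ s c ∈ S.Mb F (E + cj k Γ s E) B := by
    intro c hc
    obtain ⟨h7, h8, h9, h10, h11⟩ := id hc
    refine S.mem_Mb ⟨?_, Neg.add S h11 (S.cj_Neg h11 s)⟩ ?_ ?_
    · apply S.mem_Fix_sc_of hs hsA (Subalgebra.add_mem _ h8 (S.cj_mem_Fix_inf hs h8))
      rw [S.sc_of_even (Subalgebra.add_mem _ h7 (S.cj_even h7)), map_add, S.cj_sq hs hsA h8, add_comm]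
    · rw [add_mul, mul_add, mul_add, h9, e1 c hc, e2 c hc, hEs c hc, add_zero, zero_add]
    · have h12 : B * cj k Γ s c = cj k Γ s c := by
        conv_lhs => rw [← hBs]
        rw [← map_mul, h10]
      rw [mul_add, h10, h12]
  let φ : S.TT F E B →ₗ[k] S.Mb F (E + cj k Γ s E) B :=
    { toFun := fun c => ⟨c + cj k Γ s c, hp c c.2⟩
      map_add' := by
        intro c d
        apply Subtype.ext
        show ((c : MonoidAlgebra k Γ) + d) + cj k Γ s (c + d) = (c + cj k Γ s c) + (d + cj k Γ s d)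
        rw [map_add]; abel
      map_smul' := by
        intro r c
        apply Subtype.ext
        show r • (c : MonoidAlgebra k Γ) + cj k Γ s (r • (c : MonoidAlgebra k Γ)) =
          r • ((c : MonoidAlgebra k Γ) + cj k Γ s c)
        rw [map_smul, smul_add] }
  have hφ : Function.Injective φ := by
    rw [← LinearMap.ker_eq_bot, LinearMap.ker_eq_bot']
    intro c hc
    have e3 : (c : MonoidAlgebra k Γ) + cj k Γ s c = 0 := by
      have := congrArg (fun x => ((x : S.Mb F (E + cj k Γ s E) B) : MonoidAlgebra k Γ)) hc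
      exact this
    have e4 : E * ((c : MonoidAlgebra k Γ) + cj k Γ s c) = c := by
      rw [mul_add, e1 c c.2, c.2.2.2.1, add_zero]
    rw [e3, mul_zero] at e4
    exact Subtype.ext e4.symm
  exact LinearMap.finrank_le_finrank_of_injective hφ

end SpinStr

end Vale.Agent.P180.R2.H589
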