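import Vale.Agent.P180.R2.H589.Spin.Corner

set_option linter.unusedSectionVars false

/-!
P180: the corner bound for spin blocks of double covers of alternating groups, second part.
-/

namespace Vale.Agent.P180.R2.H589

open Equiv Finset Module
open Vale.Agent.P180 Vale.Agent.P180.H768.Gd

section W

variable {k : Type*} [Field k] {G : Type*} [Group G] [Finite G] {N H : Subgroup G}

/-- The odd element `v`. -/
theorem exists_v {ι : Type*} {s : G} (hs : s ∈ H) (hsN : s ∉ N)
    {f E : MonoidAlgebra k G}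
    (hf : f ∈ SubAlg k (H ⊓ N)) (hff : f * f = f) (hf0 : f ≠ 0)
    (hfS : ∀ y ∈ SubAlg k (H ⊓ N), ∃ c : k, f * y * f = c • f)
    {t : Finset ι} {x y : ι → MonoidAlgebra k G}
    (hx : ∀ i, x i ∈ SubAlg k (H ⊓ N))
    (hE : E = ∑ i ∈ t, x i * f * y i) (hfE : f * E = f)
    (hsE : gp k s * E = E * gp k s) :
    ∃ v ∈ SubAlg k H, Odd' N v ∧ f * v * f = v ∧ v ≠ 0 := by
  classical
  have hfF : f ∈ SubAlg k H := SubAlg_mono inf_le_left hf
  have hfA : f ∈ SubAlg k N := SubAlg_mono inf_le_right hf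
  rcases corner_dichotomy (N := N) hf hff hfS with h | h
  · exfalso
    have h1 : f * gp k s = 0 := by
      have h2 : f * gp k s = ∑ i ∈ t, (f * (gp k s * x i) * f) * y i := by
        calc f * gp k s = f * E * gp k s := by rw [hfE]
          _ = f * (gp k s * E) := by rw [hsE, mul_assoc]
          _ = _ := by
            rw [hE, mul_sum, mul_sum]
            apply sum_congr rfl
            intro i _
            simp only [mul_assoc]
      rw [h2]
      apply sum_eq_zero
      intro i _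
      have h3 : f * (gp k s * x i) * f = 0 := by
        obtain ⟨c, hc⟩ := h (gp k s * x i) (Subalgebra.mul_mem _ (single_mem_SubAlg hs 1)
          (SubAlg_mono inf_le_left (hx i)))
        have h4 : Odd' N (f * (gp k s * x i) * f) := by
          refine (mem_mul_Odd' hfA ?_).mul_mem hfA
          exact Odd'.mul_mem (SuppIn.single hsN 1) (SubAlg_mono inf_le_right (hx i))
        have h5 : f * (gp k s * x i) * f ∈ SubAlg k N := by
          rw [hc]; exact Subalgebra.smul_mem _ hfA _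
        rw [← ev_of_mem h5, ev_of_odd h4]
      rw [h3, zero_mul]
    apply hf0
    have h2 : f * gp k s * gp k s⁻¹ = f := by
      rw [mul_assoc, ← gp_mul, mul_inv_cancel, gp_one, mul_one]
    rw [← h2, h1, zero_mul]
  · exact h

/-- The odd element `w`. -/
theorem exists_w (hN : ∀ x y : G, x ∉ N → y ∉ N → x * y ∈ N) {K : Subgroup G} (hK : K = H ⊓ N)
    {s : G} (hs : s ∈ H) (hsN : s ∉ N) {f E : MonoidAlgebra k G}
    (hf : f ∈ SubAlg k K) (hff : f * f = f) (hf0 : f ≠ 0)
    (hfS : ∀ y ∈ SubAlg k K, ∃ c : k, f * y * f = c • f)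
    {t : Finset K} {x y : K → MonoidAlgebra k G}
    (hx : ∀ i, x i ∈ SubAlg k K) (hy : ∀ i, y i ∈ SubAlg k K)
    (hE : E = ∑ i ∈ t, x i * f * y i) (hEZ : E ∈ ZAlg k K) (hfE : f * E = f)
    (hEs : cj k G s E = E) :
    ∃ w, Odd' N w ∧ w ∈ Fix (cj k G) K ∧ E * w = w ∧
      (∃ a : k, a ≠ 0 ∧ w * w = a • E) ∧ cj k G s w = w := by
  classical
  have hKH : K ≤ H := by rw [hK]; exact inf_le_left
  have hKN : K ≤ N := by rw [hK]; exact inf_le_right
  have hsE : gp k s * E = E * gp k s := by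
    have h1 : gp k s * E * gp k s⁻¹ = E := by rw [← cj_eq]; exact hEs
    calc gp k s * E = gp k s * E * (gp k s⁻¹ * gp k s) := by
          rw [← gp_mul, inv_mul_cancel, gp_one, mul_one]
      _ = gp k s * E * gp k s⁻¹ * gp k s := by rw [← mul_assoc]
      _ = _ := by rw [h1]
  -- the odd element `v`
  obtain ⟨v, hv, hvo, hfv, hv0⟩ := exists_v (N := N) (H := H) hs hsN (by rw [← hK]; exact hf) hff hf0
    (by rw [← hK]; exact hfS) (fun i => by rw [← hK]; exact hx i) hE hfE hsE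
  obtain ⟨⟨a, ha, hvv⟩, -⟩ := odd_corner (H := H) hN (by rw [← hK]; exact hf) hff
    (by rw [← hK]; exact hfS) hv hvo hfv hv0
  have hES : ∀ z ∈ SubAlg k K, E * z = z * E := fun z hz => (commute_of_mem hz hEZ.2).symm
  obtain ⟨h1, h2, h3, h4⟩ := exists_lift hf hff hfS t x y hx hy hE hES hfE v hfv
  set w := ∑ i ∈ t, x i * v * y i with hw
  have hwo : Odd' N w := by
    rw [hw]
    apply Odd'.sum
    intro i _
    exact (mem_mul_Odd' (SubAlg_mono hKN (hx i)) hvo).mul_mem (SubAlg_mono hKN (hy i))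
  have hwF : w ∈ Fix (cj k G) K := by
    rw [mem_Fix_cj_iff]
    intro g hg
    exact h1 _ (single_mem_SubAlg hg 1)
  have hwS : w ∈ SubAlg k H := by
    rw [hw]
    apply Subalgebra.sum_mem
    intro i _
    exact Subalgebra.mul_mem _ (Subalgebra.mul_mem _ (SubAlg_mono hKH (hx i)) hv)
      (SubAlg_mono hKH (hy i))
  have hww : w * w = a • E := by
    have hwwZ : w * w ∈ ZAlg k K := by
      refine ⟨?_, Subalgebra.mul_mem _ hwF hwF⟩
      intro g hg
      rw [hK]
      exact ⟨Subalgebra.mul_mem _ hwS hwS g hg, hwo.mul_Odd' hN hwo g hg⟩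
    have h5 : f * (w * w) * f = a • f := by
      have h6 : f * w = w * f := h1 f hf
      rw [← hvv, ← h2]
      calc f * (w * w) * f = (f * w) * (w * f) := by simp only [mul_assoc]
        _ = (f * f * w) * (w * (f * f)) := by rw [hff]
        _ = (f * (f * w)) * ((w * f) * f) := by simp only [mul_assoc]
        _ = (f * (w * f)) * ((f * w) * f) := by rw [h6]
        _ = f * w * f * (f * w * f) := by simp only [mul_assoc]
    have h6 := block_scalar hf hff hx hE hEZ.2 hwwZ h5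
    rw [← h6, ← mul_assoc, h3]
  refine ⟨w, hwo, hwF, h3, ⟨a, ha, hww⟩, ?_⟩
  -- `w` commutes with `s`
  have h5 : gp k s * w ∈ SubAlg k K := by
    intro g hg
    rw [hK]
    refine ⟨Subalgebra.mul_mem _ (single_mem_SubAlg hs 1) hwS g hg, ?_⟩
    exact Odd'.mul_Odd' hN (SuppIn.single hsN 1) hwo g hg
  have h6 : (gp k s * w) * w = w * (gp k s * w) := h1 _ h5
  have h7 : a • (gp k s * w) = a • (w * gp k s) := by
    calc a • (gp k s * w) = gp k s * (a • (E * w)) := by rw [h3, mul_smul_comm]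
      _ = gp k s * (w * w * w) := by rw [hww, smul_mul_assoc]
      _ = (gp k s * w) * w * w := by simp only [mul_assoc]
      _ = w * gp k s * (w * w) := by rw [h6]; simp only [mul_assoc]
      _ = a • (w * (gp k s * E)) := by rw [hww, mul_smul_comm, mul_assoc]
      _ = a • (w * gp k s) := by rw [hsE, ← mul_assoc, h4]
  have h8 : gp k s * w = w * gp k s := by
    have := congrArg (fun z => a⁻¹ • z) h7
    simpa only [smul_smul, inv_mul_cancel₀ ha, one_smul] using this
  rw [cj_eq]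
  have h9 : gp k s * w * gp k s⁻¹ = w := by
    rw [h8, mul_assoc, ← gp_mul, mul_inv_cancel, gp_one, mul_one]
  exact h9

/-- `E` is primitive. -/
theorem block_prim {K : Subgroup G} {f E : MonoidAlgebra k G}
    (hf : f ∈ SubAlg k K) (hff : f * f = f) (hf0 : f ≠ 0)
    (hfS : ∀ y ∈ SubAlg k K, ∃ c : k, f * y * f = c • f)
    {t : Finset K} {x y : K → MonoidAlgebra k G}
    (hx : ∀ i, x i ∈ SubAlg k K)
    (hE : E = ∑ i ∈ t, x i * f * y i) (hEZ : E ∈ ZAlg k K) {c : MonoidAlgebra k G}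
    (hc : c ∈ ZAlg k K) (hcc : c * c = c) : E * c = 0 ∨ E * c = E := by
  obtain ⟨a, ha⟩ := hfS c hc.1
  have h1 := block_scalar hf hff hx hE hEZ.2 hc ha
  have hfc : f * c = c * f := commute_of_mem hf hc.2
  have h2 : f * c = a • f := by rw [← ha, mul_assoc, ← hfc, ← mul_assoc, hff]
  have h3 : a * a = a := by
    have h4 : (a * a) • f = a • f := by
      calc (a * a) • f = a • (a • f) := mul_smul _ _ _
        _ = a • (f * c) := by rw [h2]
        _ = (a • f) * c := by rw [smul_mul_assoc]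
        _ = (f * c) * c := by rw [h2]
        _ = f * (c * c) := by rw [mul_assoc]
        _ = a • f := by rw [hcc, h2]
    have h5 : (a * a - a) • f = 0 := by rw [sub_smul, h4, sub_self]
    exact sub_eq_zero.1 ((smul_eq_zero.1 h5).resolve_right hf0)
  have h4 : a * (a - 1) = 0 := by rw [mul_sub, h3, mul_one, sub_self]
  rcases mul_eq_zero.1 h4 with h | h
  · left; rw [h1, h, zero_smul]
  · right; rw [h1, sub_eq_zero.1 h, one_smul]

end W

namespace SpinStr

variable {α : Type} [Fintype α] [DecidableEq α] {Γ : Type} [Group Γ] [Fintype Γ] [DecidableEq Γ]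
  (S : SpinStr α Γ) {k : Type*} [Field k]

theorem finrank_map_le_one {M : Type*} [AddCommGroup M] [Module k M] [FiniteDimensional k M]
    {W : Submodule k M} {E : M} (h : ∀ x ∈ W, ∃ c : k, x = c • E) : finrank k W ≤ 1 := by
  have h3 : W ≤ Submodule.span k {E} := by
    intro x hx
    obtain ⟨c, hc⟩ := h x hx
    rw [Submodule.mem_span_singleton]
    exact ⟨c, hc.symm⟩
  refine (Submodule.finrank_mono h3).trans ?_
  have h4 := finrank_span_le_card (R := k) ({E} : Set M)
  simpa using h4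

/-- The bound for the space `M`. -/
theorem finrank_Mb_le (h2 : (2 : k) ≠ 0) (F : Finset α) {E B : MonoidAlgebra k Γ}
    {J : Submodule k (MonoidAlgebra k Γ)}
    (hE : E ∈ S.ZE k F) (hEE : E * E = E) (hEn : gp k S.z * E = - E)
    (hE1 : ∀ z ∈ S.ZE k F, ∃ c : k, E * z = c • E)
    (hJc : ∀ j ∈ J, ∀ x, j * x = x * j)
    (hB : B ∈ Fix (cj k Γ) ⊤) (hBB : B * B = B)
    (hJ : ∀ z ∈ Fix (cj k Γ) ⊤, z ∈ SubAlg k S.ΓA → ∃ c : k, B * z - c • B ∈ J)
    {g : ℕ} (hg : J ^ g = ⊥) :
    finrank k (S.Mb F E B) ≤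
      2 * ((Fᶜ).card.factorial * (2 * g * (Fᶜ).card) ^ (Fᶜ).card) := by
  have hfd : FiniteDimensional k (MonoidAlgebra k Γ) :=
    Module.Finite.equiv (MonoidAlgebra.coeffLinearEquiv k (M := Γ) (S := k)).symm
  have h1 := S.finrank_bEC_le h2 F hE hEE hEn hJc hB hBB hJ hg
  have h3 : finrank k (Submodule.map (LinearMap.mulLeft k E)
      (Subalgebra.toSubmodule (S.ZE k F))) ≤ 1 := by
    apply finrank_map_le_one (E := E)
    rintro _ ⟨z, hz, rfl⟩
    exact hE1 z hz
  refine h1.trans ?_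
  rw [mul_assoc 2 _ (_ * _)]
  apply Nat.mul_le_mul_left
  apply Nat.mul_le_mul_left
  calc _ ≤ 1 * (2 * (g * (Fᶜ).card)) ^ (Fᶜ).card := Nat.mul_le_mul_right _ h3
    _ = _ := by rw [one_mul, ← mul_assoc]

/-- The bound for the space `T`. -/
theorem finrank_TT_le (h2 : (2 : k) ≠ 0) (F : Finset α) {f E B : MonoidAlgebra k Γ}
    {J : Submodule k (MonoidAlgebra k Γ)} {K : Subgroup Γ} (hK : K = S.ΓF F ⊓ S.ΓA)
    (hf : f ∈ SubAlg k K) (hff : f * f = f) (hf0 : f ≠ 0)
    (hfn : gp k S.z * f = - f)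
    (hfS : ∀ y ∈ SubAlg k K, ∃ c : k, f * y * f = c • f)
    {t : Finset K} {x y : K → MonoidAlgebra k Γ}
    (hx : ∀ i, x i ∈ SubAlg k K) (hy : ∀ i, y i ∈ SubAlg k K)
    (hE : E = ∑ i ∈ t, x i * f * y i) (hEZ : E ∈ ZAlg k K) (hEE : E * E = E) (hfE : f * E = f)
    (hJc : ∀ j ∈ J, ∀ x, j * x = x * j)
    (hB : B ∈ Fix (cj k Γ) ⊤) (hBB : B * B = B)
    (hJ : ∀ z ∈ Fix (cj k Γ) ⊤, z ∈ SubAlg k S.ΓA → ∃ c : k, B * z - c • B ∈ J)
    {g : ℕ} (hg : J ^ g = ⊥) :
    finrank k (S.TT F E B) ≤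
      4 * ((Fᶜ).card.factorial * (2 * g * (Fᶜ).card) ^ (Fᶜ).card) := by
  classical
  have hfd : FiniteDimensional k (MonoidAlgebra k Γ) :=
    Module.Finite.equiv (MonoidAlgebra.coeffLinearEquiv k (M := Γ) (S := k)).symm
  have hKF : K ≤ S.ΓF F := by rw [hK]; exact inf_le_left
  have hKA : K ≤ S.ΓA := by rw [hK]; exact inf_le_right
  have hBc : ∀ x, x * B = B * x := fun x => commute_of_mem (SubAlg_top x) hB
  have hEn : gp k S.z * E = - E := by
    rw [hE, mul_sum, ← sum_neg_distrib]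
    apply sum_congr rfl
    intro i _
    rw [← mul_assoc, ← mul_assoc, S.gp_z_comm (x i), mul_assoc (x i), hfn]
    noncomm_ring
  have hsc : ∀ z ∈ ZAlg k K, ∃ c : k, E * z = c • E := by
    intro z hz
    obtain ⟨c, hc⟩ := hfS z hz.1
    exact ⟨c, block_scalar hf hff hx hE hEZ.2 hz hc⟩
  have hZEK : ∀ z ∈ S.ZE k F, z ∈ ZAlg k K := by
    intro z hz
    rw [mem_ZE] at hz
    refine ⟨?_, Fix_mono _ hKF hz.2.1⟩
    intro g hg
    rw [hK]
    exact ⟨hz.1 g hg, hz.2.2 g hg⟩
  by_cases hcase : S.ΓF F ≤ S.ΓA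
  · -- everything over `F` is even
    have hKF' : K = S.ΓF F := by rw [hK]; exact inf_eq_left.2 hcase
    have hEZE : E ∈ S.ZE k F := by
      rw [mem_ZE]
      exact ⟨SubAlg_mono hKF hEZ.1, by rw [← hKF']; exact hEZ.2, SubAlg_mono hKA hEZ.1⟩
    have h3 := S.finrank_Mb_le h2 F hEZE hEE hEn (fun z hz => hsc z (hZEK z hz)) hJc hB hBB hJ hg
    have h4 : S.TT F E B ≤ S.Mb F E B := by
      intro c hc
      obtain ⟨h5, h6, h7, h8, h9⟩ := hc
      refine S.mem_Mb ⟨?_, h9⟩ h7 h8
      intro h hh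
      rw [S.sc_of_ΓA (hcase hh)]
      exact h6 h ⟨hh, hcase hh⟩
    have h5 := Submodule.finrank_mono h4
    omega
  · obtain ⟨s, hs, hsA⟩ := SetLike.not_le_iff_exists.1 hcase
    have hEK : E ∈ Fix (cj k Γ) (S.ΓF F ⊓ S.ΓA) := by rw [← hK]; exact hEZ.2
    by_cases hEs : cj k Γ s E = E
    · obtain ⟨w, hwo, hwF, hEw, ⟨a, ha, hww⟩, hws⟩ := exists_w S.ΓA_mul hK hs hsA hf hff hf0 hfS hx hy
        hE hEZ hfE hEs
      rw [hK] at hwF
      have h3 := S.finrank_TT_Q h2 hs hsA hBc hEs hwo hwF hEw ha hww hws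
      have hEZE : E ∈ S.ZE k F := by
        rw [mem_ZE]
        exact ⟨SubAlg_mono hKF hEZ.1, S.mem_Fix_cj_of hs hsA hEK hEs, SubAlg_mono hKA hEZ.1⟩
      have h4 := S.finrank_Mb_le h2 F hEZE hEE hEn (fun z hz => hsc z (hZEK z hz)) hJc hB hBB hJ hg
      omega
    · -- the other case
      have hEsZ : cj k Γ s E ∈ ZAlg k K := by
        refine ⟨?_, by rw [hK]; exact S.cj_mem_Fix_inf hs hEK⟩
        intro g hg
        rw [hK]
        refine ⟨?_, S.cj_even (SubAlg_mono hKA hEZ.1) g hg⟩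
        rw [cj_eq] at hg
        exact Subalgebra.mul_mem _ (Subalgebra.mul_mem _ (single_mem_SubAlg hs 1)
          (SubAlg_mono hKF hEZ.1)) (single_mem_SubAlg ((S.ΓF F).inv_mem hs) 1) g hg
      have hEsE : cj k Γ s E * cj k Γ s E = cj k Γ s E := by rw [← map_mul, hEE]
      have h0 : E * cj k Γ s E = 0 := by
        rcases block_prim hf hff hf0 hfS hx hE hEZ hEsZ hEsE with h | h
        · exact h
        · exfalso
          apply hEs
          have h3 := congrArg (cj k Γ s) h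
          rw [map_mul, S.cj_sq hs hsA hEK] at h3
          have h4 : cj k Γ s E * E = E * cj k Γ s E := ZAlg_comm _ hEsZ _ hEZ
          rw [h4, h] at h3
          exact h3.symm
      have h0' : cj k Γ s E * E = 0 := by
        have := congrArg (cj k Γ s) h0
        rwa [map_mul, S.cj_sq hs hsA hEK, map_zero] at this
      have h3 := S.finrank_TT_M hs hsA hBc hEK h0
      have hnE : S.Neg E := S.neg_iff.2 hEn
      have hEZE : E + cj k Γ s E ∈ S.ZE k F := by
        rw [mem_ZE]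
        refine ⟨Subalgebra.add_mem _ (SubAlg_mono hKF hEZ.1) (SubAlg_mono hKF hEsZ.1), ?_,
          Subalgebra.add_mem _ (SubAlg_mono hKA hEZ.1) (SubAlg_mono hKA hEsZ.1)⟩
        apply S.mem_Fix_cj_of hs hsA (Subalgebra.add_mem _ hEK (S.cj_mem_Fix_inf hs hEK))
        rw [map_add, S.cj_sq hs hsA hEK, add_comm]
      have hEE' : (E + cj k Γ s E) * (E + cj k Γ s E) = E + cj k Γ s E := by
        rw [add_mul, mul_add, mul_add, hEE, hEsE, h0, h0', add_zero, zero_add]
      have hEn' : gp k S.z * (E + cj k Γ s E) = - (E + cj k Γ s E) :=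
        S.neg_iff.1 (Neg.add S hnE (S.cj_Neg hnE s))
      have h4 := S.finrank_Mb_le h2 F hEZE hEE' hEn' (fun z hz => by
        obtain ⟨c, hc⟩ := hsc z (hZEK z hz)
        refine ⟨c, ?_⟩
        have h5 : cj k Γ s z = z := (S.mem_ZE.1 hz).2.1 s hs
        have h6 : cj k Γ s E * z = c • cj k Γ s E := by
          conv_lhs => rw [← h5]
          rw [← map_mul, hc, map_smul]
        rw [add_mul, hc, h6, smul_add]) hJc hB hBB hJ hg
      omega

end SpinStr

end Vale.Agent.P180.R2.H589
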