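import Vale.Agent.P180.R2.H589.Spin.JM

set_option linter.unusedSectionVars false

/-!
P180: the dimension bound for the twisted group algebra.
-/

namespace Vale.Agent.P180.R2.H589

open Equiv Finset Polynomial Module
open Vale.Agent.P180

namespace SpinStr

section Gen

variable {α : Type} [Fintype α] [DecidableEq α] {Γ : Type} [Group Γ] [Fintype Γ] [DecidableEq Γ]
  (S : SpinStr α Γ) {k : Type*} [Field k]

/-- The even centre of the group algebra of `ΓF`. -/
noncomputable def ZE (k : Type*) [Field k] (F : Finset α) : Subalgebra k (MonoidAlgebra k Γ) :=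
  ZAlg k (S.ΓF F) ⊓ SubAlg k S.ΓA

theorem mem_ZE {F : Finset α} {x : MonoidAlgebra k Γ} : x ∈ S.ZE k F ↔
    x ∈ SubAlg k (S.ΓF F) ∧ x ∈ Fix (cj k Γ) (S.ΓF F) ∧ x ∈ SubAlg k S.ΓA :=
  ⟨fun h => ⟨h.1.1, h.1.2, h.2⟩, fun h => ⟨⟨h.1, h.2.1⟩, h.2.2⟩⟩

/-- The super-centralizer of `ΓF`, in the part on which `z` acts as `-1`. -/
noncomputable def SC (k : Type*) [Field k] (F : Finset α) : Submodule k (MonoidAlgebra k Γ) where
  carrier := {c | c ∈ Fix (S.sc k) (S.ΓF F) ∧ S.Neg c}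
  add_mem' := fun ha hb => ⟨Subalgebra.add_mem _ ha.1 hb.1, Neg.add S ha.2 hb.2⟩
  zero_mem' := ⟨Subalgebra.zero_mem _, fun x => by simp⟩
  smul_mem' := fun c _ ha => ⟨Subalgebra.smul_mem _ ha.1 c, Neg.smul S c ha.2⟩

theorem mem_SC {F : Finset α} {c : MonoidAlgebra k Γ} :
    c ∈ S.SC k F ↔ c ∈ Fix (S.sc k) (S.ΓF F) ∧ S.Neg c := Iff.rfl

theorem em_mem_SubAlg (F : Finset α) : S.em k ∈ SubAlg k (S.ΓF F ⊓ S.ΓA) := by
  unfold em
  apply Subalgebra.smul_mem
  apply Subalgebra.sub_mem _ (Subalgebra.one_mem _)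
  have h1 : S.z ∈ S.ΓF F ⊓ S.ΓA := ⟨S.z_mem_ΓF F, S.z_mem_ΓA⟩
  exact single_mem_SubAlg h1 1

/-- On even elements, the super-conjugation is the conjugation. -/
theorem sc_of_even {x : MonoidAlgebra k Γ} (hx : x ∈ SubAlg k S.ΓA) (g : Γ) :
    S.sc k g x = cj k Γ g x := by
  refine SuppIn.induction (P := fun x => S.sc k g x = cj k Γ g x) hx ?_ ?_ ?_
  · rw [map_zero, map_zero]
  · intro a b ha hb; rw [map_add, map_add, ha, hb]
  · intro h hh c
    rw [map_smul, map_smul, sc_single, cj_single]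
    congr 2
    rw [st_apply]
    have h1 : S.zz g h = 1 := by
      unfold zz
      rw [S.mem_ΓA.1 hh]
      simp
    rw [h1, one_mul]

/-- Super-central elements of the group algebra of `ΓF` are even. -/
theorem even_of_fix (h2 : (2 : k) ≠ 0) {F : Finset α} {x : MonoidAlgebra k Γ}
    (hx : x ∈ SubAlg k (S.ΓF F)) (hxF : x ∈ Fix (S.sc k) (S.ΓF F)) (hxn : S.Neg x) :
    x ∈ SubAlg k S.ΓA := by
  intro g hg
  by_contra hgA
  apply hg
  have hgF := hx g hg
  have h1 := S.mem_Fix_sc_iff.1 hxF g hgF g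
  have h3 : S.st g g = S.z * g := by
    have h4 : Perm.sign (S.π g) ≠ 1 := fun h => hgA (S.mem_ΓA.2 h)
    have h5 : S.zz g g = S.z := by
      unfold zz
      rw [if_neg h4, if_neg h4]
    rw [st_apply, h5, mul_inv_cancel_right]
  rw [h3, hxn] at h1
  have h4 : (2 : k) * x.coeff g = 0 := by
    rw [two_mul]
    nth_rewrite 1 [← h1]
    rw [neg_add_cancel]
  exact (mul_eq_zero.1 h4).resolve_left h2

theorem mem_ZE_of_gens (h2 : (2 : k) ≠ 0) {F : Finset α} {x : MonoidAlgebra k Γ}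
    (hx : x ∈ SubAlg k (S.ΓF F)) (hxF : x ∈ Fix (S.sc k) (S.ΓF F)) (hxn : S.Neg x) :
    x ∈ S.ZE k F := by
  have h3 := S.even_of_fix h2 hx hxF hxn
  rw [mem_ZE]
  refine ⟨hx, ?_, h3⟩
  intro h hh
  rw [← S.sc_of_even h3, hxF h hh]

/-- Elements of `Γ` which fix the points of `F` commute with the even elements over `F`. -/
theorem fixer_comm_ZE {F : Finset α} {w : Γ} (hw : ∀ x ∈ F, S.π w x = x)
    {c : MonoidAlgebra k Γ} (hc : c ∈ SubAlg k (S.ΓF F ⊓ S.ΓA)) : gp k w * c = c * gp k w := by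
  have h1 : gp k w ∈ Fix (cj k Γ) (S.ΓF F ⊓ S.ΓA) := by
    rw [mem_Fix_cj_iff]
    intro h hh
    rw [← gp_mul, ← gp_mul]
    congr 1
    have h3 := S.st_of_disjoint hw h hh.1
    have h4 : S.zz h w = 1 := by
      unfold zz
      rw [if_pos (S.mem_ΓA.1 hh.2)]
    rw [st_apply, h4, one_mul] at h3
    rw [mul_inv_eq_iff_eq_mul] at h3
    exact h3
  exact (commute_of_mem hc h1).symm

end Gen

section FinN

variable {n : ℕ} {Γ : Type} [Group Γ] [Fintype Γ] [DecidableEq Γ]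
  (S : SpinStr (Fin n) Γ) {k : Type*} [Field k]

theorem LS_mem_SubAlg {l : ℕ} {i : Fin n} (hi : (i : ℕ) < l) :
    S.LS k i ∈ SubAlg k (S.ΓF (Fl n l)) := by
  unfold LS
  apply Subalgebra.sum_mem
  intro j hj
  rw [mem_filter] at hj
  apply Subalgebra.mul_mem _ (SubAlg_mono inf_le_left (S.em_mem_SubAlg _))
  apply single_mem_SubAlg
  apply S.τ_mem_ΓF
  · rw [mem_Fl]
    have := Fin.lt_def.1 hj.2
    omega
  · rw [mem_Fl]; exact hi
  · exact hj.2.ne

theorem LS_odd (i : Fin n) : Odd' S.ΓA (S.LS k i) := by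
  unfold LS
  apply Odd'.sum
  intro j hj
  rw [mem_filter] at hj
  apply mem_mul_Odd' (SubAlg_mono inf_le_right (S.em_mem_SubAlg univ))
  exact SuppIn.single (S.τ_not_mem_ΓA hj.2.ne) 1

theorem MS_even (i : Fin n) : S.MS k i ∈ SubAlg k S.ΓA :=
  (S.LS_odd i).mul_Odd' S.ΓA_mul (S.LS_odd i)

theorem coeff_Q_mem {l : ℕ} (hl : l ≤ n) : ∀ a ≤ l, ∀ r,
    (S.Q k 0 a).coeff r ∈ SubAlg k (S.ΓF (Fl n l) ⊓ S.ΓA) := by
  intro a
  induction a with
  | zero =>
    intro _ r
    rw [Q, coeff_one]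
    split_ifs
    · exact Subalgebra.one_mem _
    · exact Subalgebra.zero_mem _
  | succ a ih =>
    intro ha r
    rw [Q, fac, dif_pos (by omega : 0 + a < n), mul_sub, coeff_sub, coeff_mul_C]
    apply Subalgebra.sub_mem
    · cases r with
      | zero => rw [coeff_mul_X_zero]; exact Subalgebra.zero_mem _
      | succ r => rw [coeff_mul_X]; exact ih (by omega) r
    · apply Subalgebra.mul_mem _ (ih (by omega) r)
      intro g hg
      refine ⟨?_, S.MS_even _ g hg⟩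
      have h1 : S.LS k (⟨0 + a, by omega⟩ : Fin n) ∈ SubAlg k (S.ΓF (Fl n l)) :=
        S.LS_mem_SubAlg (by show 0 + a < l; omega)
      exact Subalgebra.mul_mem _ h1 h1 g hg

theorem coeff_Q_ZE {l : ℕ} (hl : l ≤ n) (r : ℕ) : (S.Q k 0 l).coeff r ∈ S.ZE k (Fl n l) := by
  have h1 := S.coeff_Q_mem (k := k) hl l le_rfl r
  rw [mem_ZE]
  refine ⟨SubAlg_mono inf_le_left h1, mem_Fix_cj_iff.2 ?_, SubAlg_mono inf_le_right h1⟩
  intro h hh
  apply S.comm_of_neighbours _ l _ h hh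
  intro i j hij hj
  apply commute_coeff
  apply S.gp_comm_Q hij
  right; right
  exact ⟨Nat.zero_le _, by omega⟩

theorem ΓF_Fl_self : S.ΓF (Fl n n) = ⊤ := by
  rw [eq_top_iff]
  intro g _
  rw [mem_ΓF]
  intro x hx
  rw [mem_Fl] at hx
  exact absurd x.2 hx

theorem coeff_Q_center (r : ℕ) : (S.Q k 0 n).coeff r ∈ Fix (cj k Γ) ⊤ := by
  have := (S.mem_ZE.1 (S.coeff_Q_ZE (k := k) le_rfl r)).2.1
  rwa [S.ΓF_Fl_self] at this

theorem natDegree_Q_le (l m : ℕ) : (S.Q k l m).natDegree ≤ m := by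
  induction m with
  | zero => rw [Q]; simp
  | succ m ih =>
    rw [Q]
    refine (natDegree_mul_le).trans ?_
    refine Nat.add_le_add ih ?_
    unfold fac
    split_ifs
    · exact natDegree_X_sub_C_le _
    · simp

theorem monic_Q {l m : ℕ} (h : l + m ≤ n) : (S.Q k l m).Monic ∧ (S.Q k l m).natDegree = m := by
  induction m with
  | zero => rw [Q]; simp
  | succ m ih =>
    obtain ⟨h1, h2⟩ := ih (by omega)
    rw [Q, fac, dif_pos (by omega : l + m < n)]
    refine ⟨h1.mul (monic_X_sub_C _), ?_⟩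
    rw [h1.natDegree_mul (monic_X_sub_C _), h2, natDegree_X_sub_C]

theorem fac_comm (j : Fin n) (a : ℕ) :
    (X - C (S.MS k j)) * S.fac k a = S.fac k a * (X - C (S.MS k j)) := by
  unfold fac
  split_ifs with h'
  · exact XC_comm (S.MS_comm _ _)
  · rw [mul_one, one_mul]

theorem fac_eq (j : Fin n) : S.fac k j = X - C (S.MS k j) := by
  unfold fac
  rw [dif_pos j.2]

theorem exists_factor {l m : ℕ} {j : Fin n} (h1 : l ≤ j) (h2 : (j : ℕ) < l + m) :
    ∃ p, S.Q k l m = p * (X - C (S.MS k j)) := by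
  induction m with
  | zero => omega
  | succ m ih =>
    rcases Nat.lt_or_ge (j : ℕ) (l + m) with h | h
    · obtain ⟨p, hp⟩ := ih h
      exact ⟨p * S.fac k (l + m), mul_swap_aux hp (S.fac_comm j _)⟩
    · have hj : l + m = (j : ℕ) := by omega
      refine ⟨S.Q k l m, ?_⟩
      rw [Q, hj, fac_eq]

theorem eval_Q {l m : ℕ} {j : Fin n} (h1 : l ≤ j) (h2 : (j : ℕ) < l + m) :
    ∑ i ∈ range (m + 1), (S.Q k l m).coeff i * S.MS k j ^ i = 0 := by
  obtain ⟨p, hp⟩ := S.exists_factor (k := k) h1 h2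
  have h3 : eval (S.MS k j) (S.Q k l m) = 0 := by rw [hp, eval_mul_X_sub_C]
  rw [eval_eq_sum_range' (Nat.lt_succ_of_le (S.natDegree_Q_le l m))] at h3
  exact h3

/-- Even elements over the first `l` points commute with `LS j`, `l ≤ j`. -/
theorem LS_comm_ZE {l : ℕ} {j : Fin n} (hj : l ≤ j) {c : MonoidAlgebra k Γ}
    (hc : c ∈ SubAlg k (S.ΓF (Fl n l) ⊓ S.ΓA)) : c * S.LS k j = S.LS k j * c := by
  apply commute_of_mem hc
  rw [mem_Fix_cj_iff]
  intro x hx
  have h1 := S.gp_mul_LS (k := k) (σ := x) (j := j) ?_ ?_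
  · rw [S.sg_even hx.2, one_smul] at h1
    exact h1
  · apply hx.1
    rw [mem_Fl]
    omega
  · intro y
    by_cases hy : y ∈ Fl n l
    · have h1 : S.π x y ∈ Fl n l := (IsF.mem hx.1).2 hy
      rw [mem_Fl] at hy h1
      rw [Fin.lt_def, Fin.lt_def]
      omega
    · rw [hx.1 y hy]

/-- The elements fixing the first `l` points. -/
def fixers (l : ℕ) : Finset Γ := univ.filter (fun w => ∀ x : Fin n, (x : ℕ) < l → S.π w x = x)

theorem mem_fixers {l : ℕ} {w : Γ} :
    w ∈ S.fixers l ↔ ∀ x : Fin n, (x : ℕ) < l → S.π w x = x := by simp [fixers]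

/-- The Jucys-Murphy elements after `l`. -/
noncomputable def LN (k : Type*) [Field k] (l s : ℕ) : MonoidAlgebra k Γ :=
  if h : l + s < n then S.LS k ⟨l + s, h⟩ else 1

/-- The space `M`. -/
noncomputable def MM (l m N : ℕ) (e : MonoidAlgebra k Γ) (Z : Subalgebra k (MonoidAlgebra k Γ)) :
    Submodule k (MonoidAlgebra k Γ) :=
  (S.fixers l).sup fun w => Submodule.map (LinearMap.mulRight k (gp k w))
    (Abs.Vr N e Z (S.LN k l) m)

section

variable {l m N : ℕ} {e : MonoidAlgebra k Γ} {Z : Subalgebra k (MonoidAlgebra k Γ)}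

theorem mem_MM {w : Γ} (hw : w ∈ S.fixers l) {v : MonoidAlgebra k Γ}
    (hv : v ∈ Abs.Vr N e Z (S.LN k l) m) : v * gp k w ∈ S.MM l m N e Z := by
  have h1 : Submodule.map (LinearMap.mulRight k (gp k w)) (Abs.Vr N e Z (S.LN k l) m) ≤
      S.MM l m N e Z :=
    Finset.le_sup (f := fun w => Submodule.map (LinearMap.mulRight k (gp k w))
      (Abs.Vr N e Z (S.LN k l) m)) hw
  exact h1 ⟨v, hv, rfl⟩

theorem MM_le {W : Submodule k (MonoidAlgebra k Γ)}
    (h : ∀ w ∈ S.fixers l, ∀ v ∈ Abs.Vr N e Z (S.LN k l) m, v * gp k w ∈ W) :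
    S.MM l m N e Z ≤ W := by
  apply Finset.sup_le
  intro w hw
  rw [Submodule.map_le_iff_le_comap]
  intro v hv
  exact h w hw v hv

theorem finrank_MM : finrank k (S.MM l m N e Z) ≤
    (S.fixers l).card * (finrank k (Abs.Vr N e Z (S.LN k l) 0) * N ^ m) := by
  have : FiniteDimensional k (MonoidAlgebra k Γ) :=
    Module.Finite.equiv (MonoidAlgebra.coeffLinearEquiv k (M := Γ) (S := k)).symm
  refine finrank_finset_sup_le_mul _ _ _ ?_
  intro w _
  exact (Submodule.finrank_map_le _ _).trans (Abs.finrank_Vr m)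

end

theorem neg_em {e : MonoidAlgebra k Γ} (h2 : (2 : k) ≠ 0) (he : gp k S.z * e = - e) :
    e * S.em k = e := by
  rw [← S.em_comm]
  exact S.em_mul_of_neg h2 (S.neg_iff.2 he)

/-- `Y_t` in terms of the Jucys-Murphy elements. -/
theorem em_mul_Y {l : ℕ} {t : Fin n} (ht : l ≤ t) :
    S.em k * S.Y k (Fl n l) t = - S.LS k t +
      ∑ j ∈ univ.filter (fun j : Fin n => l ≤ (j : ℕ) ∧ j < t), S.em k * gp k (S.τ j t) := by
  unfold LS Y
  have h1 : univ.filter (fun j : Fin n => j < t) =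
      Fl n l ∪ univ.filter (fun j : Fin n => l ≤ (j : ℕ) ∧ j < t) := by
    ext x
    simp only [mem_filter, mem_univ, true_and, mem_union, mem_Fl, Fin.lt_def]
    omega
  have h2 : Disjoint (Fl n l) (univ.filter (fun j : Fin n => l ≤ (j : ℕ) ∧ j < t)) := by
    rw [Finset.disjoint_left]
    intro x hx hx'
    rw [mem_Fl] at hx
    rw [mem_filter] at hx'
    omega
  rw [h1, sum_union h2, neg_add, add_assoc, neg_add_cancel, add_zero, mul_sum, ← sum_neg_distrib]
  apply sum_congr rfl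
  intro f hf
  rw [mem_Fl] at hf
  have hne : f ≠ t := by rintro rfl; omega
  rw [S.τ_symm hne]
  have : MonoidAlgebra.single (S.z * S.τ f t) (1 : k) = gp k (S.z * S.τ f t) := rfl
  rw [this, gp_mul, ← mul_assoc, ← S.gp_z_comm, S.z_mul_em, neg_mul]

theorem gp_mul_emY {l : ℕ} {w : Γ} (hw : ∀ x : Fin n, (x : ℕ) < l → S.π w x = x) {t : Fin n}
    (ht : ¬ (t : ℕ) < l) : gp k w * (S.em k * S.Y k (Fl n l) t) =
      S.sg k w • (S.em k * S.Y k (Fl n l) (S.π w t) * gp k w) := by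
  unfold Y
  rw [mul_sum, mul_sum, mul_sum, sum_mul, smul_sum]
  apply sum_congr rfl
  intro f hf
  have hne : t ≠ f := by rintro rfl; exact ht (mem_Fl.1 hf)
  have h6 := S.gp_mul_τ (k := k) w hne
  rw [hw f (mem_Fl.1 hf)] at h6
  exact h6

theorem MM_mul_gens (h2 : (2 : k) ≠ 0) {l m N : ℕ} {e : MonoidAlgebra k Γ}
    (hVe : ∀ v ∈ Abs.Vr N e (S.ZE k (Fl n l)) (S.LN k l) m, v * S.em k = v)
    (hVZ : ∀ v ∈ Abs.Vr N e (S.ZE k (Fl n l)) (S.LN k l) m, ∀ z ∈ S.ZE k (Fl n l),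
      v * z ∈ Abs.Vr N e (S.ZE k (Fl n l)) (S.LN k l) m)
    (hVL : ∀ v ∈ Abs.Vr N e (S.ZE k (Fl n l)) (S.LN k l) m, ∀ t : Fin n, l ≤ (t : ℕ) →
      v * S.LS k t ∈ Abs.Vr N e (S.ZE k (Fl n l)) (S.LN k l) m) :
    ∀ x ∈ S.gens k (Fl n l), ∀ w ∈ S.fixers l,
      ∀ v ∈ Abs.Vr N e (S.ZE k (Fl n l)) (S.LN k l) m,
      v * gp k w * x ∈ S.MM l m N e (S.ZE k (Fl n l)) := by
  intro x hx w hw v hv
  have hw' := S.mem_fixers.1 hw
  rcases hx with (⟨hxn, hxS, hxF⟩ | ⟨t, ht, rfl⟩) | ⟨σ, hσ, rfl⟩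
  · have hxZ : x ∈ S.ZE k (Fl n l) := S.mem_ZE_of_gens h2 hxS hxF hxn
    have h3 : gp k w * x = x * gp k w := by
      apply S.fixer_comm_ZE (F := Fl n l) (fun y hy => hw' y (mem_Fl.1 hy))
      exact fun g hg => ⟨hxS g hg, (S.mem_ZE.1 hxZ).2.2 g hg⟩
    rw [mul_assoc, h3, ← mul_assoc]
    exact S.mem_MM hw (hVZ v hv x hxZ)
  · -- `Y_t`
    rw [mem_Fl] at ht
    have h6 : l ≤ (S.π w t : Fin n) := by
      by_contra hc
      have h7 := hw' (S.π w t) (by omega)
      have h8 := (S.π w).injective h7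
      rw [h8] at hc
      omega
    have h7 : v * gp k w * S.Y k (Fl n l) t =
        S.sg k w • (v * (S.em k * S.Y k (Fl n l) (S.π w t)) * gp k w) := by
      calc v * gp k w * S.Y k (Fl n l) t = v * S.em k * gp k w * S.Y k (Fl n l) t := by
            rw [hVe v hv]
        _ = v * (gp k w * (S.em k * S.Y k (Fl n l) t)) := by
            rw [mul_assoc v, S.em_comm]; simp only [mul_assoc]
        _ = _ := by rw [S.gp_mul_emY hw' ht, mul_smul_comm, ← mul_assoc v]
    rw [h7, S.em_mul_Y h6]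
    apply Submodule.smul_mem
    rw [mul_add, add_mul, mul_neg, neg_mul, mul_sum, sum_mul]
    apply Submodule.add_mem
    · exact Submodule.neg_mem _ (S.mem_MM hw (hVL v hv _ h6))
    · apply Submodule.sum_mem
      intro j hj
      rw [mem_filter] at hj
      rw [← mul_assoc, hVe v hv, mul_assoc, ← gp_mul]
      apply S.mem_MM _ hv
      rw [mem_fixers]
      intro x hx
      rw [map_mul, Perm.mul_apply, hw' x hx, S.π_τ hj.2.2.ne]
      apply swap_apply_of_ne_of_ne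
      · rintro rfl; omega
      · rintro rfl; omega
  · rw [mul_assoc]
    have h5 : gp k w * MonoidAlgebra.single σ 1 = gp k (w * σ) := by rw [gp_mul]
    rw [h5]
    apply S.mem_MM _ hv
    rw [mem_fixers]
    intro x hx
    rw [map_mul, Perm.mul_apply, hσ x (mem_Fl.2 hx), hw' x hx]

/-- **The dimension bound**, from the properties of the spaces `Vr`. -/
theorem finrank_le_aux (h2 : (2 : k) ≠ 0) {l m N : ℕ} {e : MonoidAlgebra k Γ}
    (hVe : ∀ v ∈ Abs.Vr N e (S.ZE k (Fl n l)) (S.LN k l) m, v * S.em k = v)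
    (hVZ : ∀ v ∈ Abs.Vr N e (S.ZE k (Fl n l)) (S.LN k l) m, ∀ z ∈ S.ZE k (Fl n l),
      v * z ∈ Abs.Vr N e (S.ZE k (Fl n l)) (S.LN k l) m)
    (hVL : ∀ v ∈ Abs.Vr N e (S.ZE k (Fl n l)) (S.LN k l) m, ∀ t : Fin n, l ≤ (t : ℕ) →
      v * S.LS k t ∈ Abs.Vr N e (S.ZE k (Fl n l)) (S.LN k l) m)
    (heM : e ∈ S.MM l m N e (S.ZE k (Fl n l))) :
    finrank k (Submodule.map (LinearMap.mulLeft k e) (S.SC k (Fl n l))) ≤
    (S.fixers l).card * (finrank k (Abs.Vr N e (S.ZE k (Fl n l)) (S.LN k l) 0) * N ^ m) := by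
  have hfd : FiniteDimensional k (MonoidAlgebra k Γ) :=
    Module.Finite.equiv (MonoidAlgebra.coeffLinearEquiv k (M := Γ) (S := k)).symm
  have hclos : ∀ x ∈ S.gens k (Fl n l), ∀ y ∈ S.MM l m N e (S.ZE k (Fl n l)),
      y * x ∈ S.MM l m N e (S.ZE k (Fl n l)) := by
    intro x hx y hy
    have : S.MM l m N e (S.ZE k (Fl n l)) ≤ Submodule.comap (LinearMap.mulRight k x)
        (S.MM l m N e (S.ZE k (Fl n l))) :=
      S.MM_le fun w hw v hv => S.MM_mul_gens h2 hVe hVZ hVL x hx w hw v hv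
    exact this hy
  have hclos2 : ∀ x ∈ S.Cn k (Fl n l), ∀ y ∈ S.MM l m N e (S.ZE k (Fl n l)),
      y * x ∈ S.MM l m N e (S.ZE k (Fl n l)) := by
    intro x hx
    refine Algebra.adjoin_induction (p := fun x _ => ∀ y ∈ S.MM l m N e (S.ZE k (Fl n l)),
      y * x ∈ S.MM l m N e (S.ZE k (Fl n l))) ?_ ?_ ?_ ?_ hx
    · exact hclos
    · intro c y hy
      rw [← Algebra.commutes, ← Algebra.smul_def]
      exact Submodule.smul_mem _ _ hy
    · intro x x' _ _ hx hx' y hy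
      rw [mul_add]
      exact Submodule.add_mem _ (hx y hy) (hx' y hy)
    · intro x x' _ _ hx hx' y hy
      rw [← mul_assoc]
      exact hx' _ (hx y hy)
  have hle : Submodule.map (LinearMap.mulLeft k e) (S.SC k (Fl n l)) ≤
      S.MM l m N e (S.ZE k (Fl n l)) := by
    rintro _ ⟨x, hx, rfl⟩
    exact hclos2 x (S.mem_Cn_of_fix h2 hx.1 hx.2) e heM
  exact (Submodule.finrank_mono hle).trans S.finrank_MM

/-- **The dimension bound.** -/
theorem finrank_le (h2 : (2 : k) ≠ 0) {l m : ℕ} (hn : l + m = n) {E b : MonoidAlgebra k Γ}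
    {J : Submodule k (MonoidAlgebra k Γ)}
    (hE : E ∈ S.ZE k (Fl n l)) (hEE : E * E = E) (hEn : gp k S.z * E = - E)
    (hJc : ∀ j ∈ J, ∀ x, j * x = x * j)
    (hb : b ∈ Fix (cj k Γ) ⊤) (hbb : b * b = b)
    (hJ : ∀ z ∈ Fix (cj k Γ) ⊤, z ∈ SubAlg k S.ΓA → ∃ c : k, b * z - c • b ∈ J)
    {g : ℕ} (hg : J ^ g = ⊥) :
    finrank k (Submodule.map (LinearMap.mulLeft k (b * E)) (S.SC k (Fl n l))) ≤
    (S.fixers l).card * (finrank k (Submodule.map (LinearMap.mulLeft k E)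
      (Subalgebra.toSubmodule (S.ZE k (Fl n l)))) * (2 * (g * m)) ^ m) := by
  classical
  have hfd : FiniteDimensional k (MonoidAlgebra k Γ) :=
    Module.Finite.equiv (MonoidAlgebra.coeffLinearEquiv k (M := Γ) (S := k)).symm
  have hnt : Nontrivial (MonoidAlgebra k Γ) := inferInstance
  set Z := S.ZE k (Fl n l) with hZ
  set e := b * E with he
  have hZS : ∀ z ∈ Z, z ∈ SubAlg k (S.ΓF (Fl n l) ⊓ S.ΓA) := fun z hz g hg =>
    ⟨(S.mem_ZE.1 hz).1 g hg, (S.mem_ZE.1 hz).2.2 g hg⟩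
  have hbc : ∀ x, x * b = b * x := fun x => commute_of_mem (SubAlg_top x) hb
  have hZE : ∀ z ∈ Z, z * E = E * z := fun z hz =>
    commute_of_mem (S.mem_ZE.1 hz).1 (S.mem_ZE.1 hE).2.1
  have hee : e * e = e := by
    rw [he, mul_assoc, ← mul_assoc E, hbc E, mul_assoc b E E, hEE, ← mul_assoc, hbb]
  have heZ : ∀ z ∈ Z, z * e = e * z := by
    intro z hz
    rw [he, ← mul_assoc, hbc, mul_assoc, hZE z hz, mul_assoc]
  have hLN : ∀ r < m, ∃ h : l + r < n, S.LN k l r = S.LS k ⟨l + r, h⟩ := by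
    intro r hr
    refine ⟨by omega, ?_⟩
    unfold LN
    rw [dif_pos (by omega)]
  have hZL : ∀ r < m, ∀ z ∈ Z, z * S.LN k l r = S.LN k l r * z := by
    intro r hr z hz
    obtain ⟨h, h1⟩ := hLN r hr
    rw [h1]
    exact S.LS_comm_ZE (by show l ≤ l + r; omega) (hZS z hz)
  have heL : ∀ r < m, e * S.LN k l r = S.LN k l r * e := by
    intro r hr
    rw [he, mul_assoc, hZL r hr E hE, ← mul_assoc, ← hbc, mul_assoc]
  have hanti : ∀ r s, s < r → r < m → S.LN k l r * S.LN k l s = - (S.LN k l s * S.LN k l r) := by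
    intro r s hsr hr
    obtain ⟨h, h1⟩ := hLN r hr
    obtain ⟨h', h1'⟩ := hLN s (by omega)
    rw [h1, h1']
    apply S.LS_anti
    intro h3
    have := congrArg Fin.val h3
    simp only at this
    omega
  have hid : ∀ r < m, ∃ a : ℕ → MonoidAlgebra k Γ, (∀ i, a i ∈ Z) ∧
      e * S.LN k l r ^ (2 * (g * m)) = - ∑ i ∈ range (2 * (g * m)), e * (a i * S.LN k l r ^ i) := by
    intro r hr
    obtain ⟨h, h1⟩ := hLN r hr
    rw [h1]
    apply Abs.identity_sq
    obtain ⟨hm0, hm1⟩ := S.monic_Q (k := k) (l := 0) (m := l) (by omega)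
    obtain ⟨hm2, hm3⟩ := S.monic_Q (k := k) (l := l) (m := m) (by omega)
    have hprod : S.Q k 0 l * S.Q k l m = S.Q k 0 n := by
      have := S.Q_add (k := k) 0 l m
      rw [Nat.zero_add, hn] at this
      exact this.symm
    apply Abs.exists_identity (P0 := S.Q k 0 l) (P1 := S.Q k l m) hm0 hm1 hm3.le
      (fun r => S.coeff_Q_ZE (by omega) r) hZE hJc hbc ?_ ?_ hbb hEE ?_ ?_ ?_ ?_ hg
    · intro r
      rw [hprod]
      exact commute_of_mem (SubAlg_top E) (S.coeff_Q_center r)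
    · intro r
      rw [hprod]
      apply hJ _ (S.coeff_Q_center r)
      exact (S.mem_ZE.1 (S.coeff_Q_ZE (k := k) le_rfl r)).2.2
    · have := hm2.coeff_natDegree
      rwa [hm3] at this
    · exact S.eval_Q (by show l ≤ l + r; omega) (by show l + r < l + m; omega)
    · intro z hz
      have h5 := S.LS_comm_ZE (k := k) (l := l) (j := ⟨l + r, h⟩) (by show l ≤ l + r; omega) (hZS z hz)
      rw [← mul_assoc, h5, mul_assoc, h5, mul_assoc]
    · have h5 := S.LS_comm_ZE (k := k) (l := l) (j := ⟨l + r, h⟩) (by show l ≤ l + r; omega) (hZS E hE)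
      rw [← mul_assoc, h5, mul_assoc, h5, mul_assoc]
  obtain ⟨h1, h3, h4⟩ := Abs.Vr_props (N := 2 * (g * m)) (m := m) hee heZ hanti hZL heL hid m le_rfl
  -- `z` acts as `-1`
  have hez : e * gp k S.z = - e := by
    rw [he, mul_assoc, ← S.gp_z_comm, hEn, mul_neg]
  have hVz : ∀ v ∈ Abs.Vr (2 * (g * m)) e Z (S.LN k l) m, v * S.em k = v := by
    intro v hv
    have h5 := h1 v hv
    rw [← h5, mul_assoc, S.neg_em h2]
    rw [S.gp_z_comm, hez]
  -- `e ∈ MM`
  have h1mem : (1 : Γ) ∈ S.fixers l := by rw [mem_fixers]; intro x _; rw [map_one]; rfl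
  have h5 : e ∈ S.MM l m (2 * (g * m)) e Z := by
    rcases Nat.eq_zero_or_pos g with h0 | hpos
    · have h5 : e = 0 := by
        have h6 : (1 : MonoidAlgebra k Γ) ∈ (⊥ : Submodule k (MonoidAlgebra k Γ)) := by
          rw [← hg, h0, pow_zero]; exact Submodule.one_le.1 le_rfl
        have h8 : (1 : MonoidAlgebra k Γ) = 0 := (Submodule.mem_bot k).1 h6
        rw [← mul_one e, h8, mul_zero]
      rw [h5]; exact Submodule.zero_mem _
    · have h5 : e ∈ Abs.Vr (2 * (g * m)) e Z (S.LN k l) m := by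
        rcases Nat.eq_zero_or_pos m with h0 | hm
        · subst h0; exact ⟨1, Z.one_mem, by simp⟩
        · exact Abs.e_mem_Vr (Nat.mul_pos (by norm_num) (Nat.mul_pos hpos hm)) m
      have := S.mem_MM h1mem h5
      rwa [gp_one, mul_one] at this
  -- `v (j t)`
  have hVL : ∀ v ∈ Abs.Vr (2 * (g * m)) e Z (S.LN k l) m, ∀ t : Fin n, l ≤ (t : ℕ) →
      v * S.LS k t ∈ Abs.Vr (2 * (g * m)) e Z (S.LN k l) m := by
    intro v hv t ht
    have h5 : S.LS k t = S.LN k l ((t : ℕ) - l) := by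
      unfold LN
      have h6 : l + ((t : ℕ) - l) = t := by omega
      rw [dif_pos (by rw [h6]; exact t.2)]
      congr 1
      exact Fin.ext h6.symm
    rw [h5]
    exact h4 _ (by have := t.2; omega) v hv
  refine (S.finrank_le_aux h2 hVz h3 hVL h5).trans ?_
  apply Nat.mul_le_mul_left
  apply Nat.mul_le_mul_right
  have h6 : Abs.Vr (2 * (g * m)) e Z (S.LN k l) 0 = Submodule.map (LinearMap.mulLeft k b)
      (Submodule.map (LinearMap.mulLeft k E) (Subalgebra.toSubmodule Z)) := by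
    rw [Abs.Vr, ← Submodule.map_comp]
    congr 1
    ext1 x
    simp [he]
  rw [h6]
  exact Submodule.finrank_map_le _ _

/-- The number of fixers. -/
theorem card_fixers_le (l : ℕ) : (S.fixers l).card ≤ 2 * (H589.fixers n l).card := by
  classical
  have h1 : (S.fixers l).card ≤ 2 * ((S.fixers l).image S.π).card := by
    apply card_le_mul_card_image
    intro a ha
    rw [mem_image] at ha
    obtain ⟨w, hw, rfl⟩ := ha
    have h2 : (S.fixers l).filter (fun x => S.π x = S.π w) ⊆ {w, S.z * w} := by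
      intro x hx
      rw [mem_filter] at hx
      have h3 : x * w⁻¹ = 1 ∨ x * w⁻¹ = S.z := by
        rw [← S.ker, map_mul, map_inv, hx.2, mul_inv_cancel]
      rw [mem_insert, mem_singleton]
      rcases h3 with h3 | h3
      · left; exact mul_inv_eq_one.1 h3
      · right; exact mul_inv_eq_iff_eq_mul.1 h3
    exact (card_le_card h2).trans card_le_two
  refine h1.trans (Nat.mul_le_mul_left _ (card_le_card ?_))
  intro a ha
  rw [mem_image] at ha
  obtain ⟨w, hw, rfl⟩ := ha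
  rw [H589.mem_fixers]
  exact S.mem_fixers.1 hw

end FinN

end SpinStr

end Vale.Agent.P180.R2.H589
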