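import Vale.Agent.P180.R2.H589.Spin.Dim
import Vale.Agent.P180.R2.H589.Gen2

set_option linter.unusedSectionVars false

/-!
P180: the dimension bound for the twisted group algebra, arbitrary finite sets.
-/

namespace Vale.Agent.P180.R2.H589

open Equiv Finset Polynomial Module
open Vale.Agent.P180

namespace SpinStr

variable {α : Type} [Fintype α] [DecidableEq α] {Γ : Type} [Group Γ]
  (S : SpinStr α Γ) {β : Type} [Fintype β] [DecidableEq β] (ε : α ≃ β)

theorem permCongr_sign (g : Perm α) : Perm.sign (ε.permCongrHom g) = Perm.sign g :=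
  Perm.sign_permCongr ε g

/-- Transport along a bijection. -/
def congr : SpinStr β Γ where
  π := ε.permCongrHom.toMonoidHom.comp S.π
  z := S.z
  z_ne := S.z_ne
  z_sq := S.z_sq
  z_comm := S.z_comm
  ker g := by
    rw [← S.ker]
    constructor
    · intro h
      exact ε.permCongrHom.injective (h.trans (map_one _).symm)
    · intro h
      show ε.permCongrHom (S.π g) = 1
      rw [h, map_one]
  τ i j := S.τ (ε.symm i) (ε.symm j)
  π_τ := by
    intro i j hij
    have h1 : ε.symm i ≠ ε.symm j := fun h => hij (ε.symm.injective h)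
    show ε.permCongrHom (S.π (S.τ (ε.symm i) (ε.symm j))) = swap i j
    rw [S.π_τ h1]
    ext x
    show ε ((swap (ε.symm i) (ε.symm j)) (ε.symm x)) = swap i j x
    have := ε.symm.injective.swap_apply i j x
    rw [this, Equiv.apply_symm_apply]
  τ_symm := by
    intro i j hij
    exact S.τ_symm fun h => hij (ε.symm.injective h)
  conj := by
    intro i j hij g
    have h1 : ε.symm i ≠ ε.symm j := fun h => hij (ε.symm.injective h)
    have h2 := S.conj h1 g
    rw [h2]
    have h3 : Perm.sign ((ε.permCongrHom.toMonoidHom.comp S.π) g) = Perm.sign (S.π g) :=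
      permCongr_sign ε (S.π g)
    rw [h3]
    congr 2
    · show S.π g (ε.symm i) = ε.symm (ε (S.π g (ε.symm i)))
      rw [Equiv.symm_apply_apply]
    · show S.π g (ε.symm j) = ε.symm (ε (S.π g (ε.symm j)))
      rw [Equiv.symm_apply_apply]

theorem congr_π (g : Γ) : (S.congr ε).π g = ε.permCongrHom (S.π g) := rfl

theorem congr_π_apply (g : Γ) (x : β) : (S.congr ε).π g x = ε (S.π g (ε.symm x)) := rfl

theorem congr_sign (g : Γ) : Perm.sign ((S.congr ε).π g) = Perm.sign (S.π g) :=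
  permCongr_sign ε (S.π g)

theorem congr_st : (S.congr ε).st = S.st := by
  have h1 : ∀ g h, (S.congr ε).zz g h = S.zz g h := by
    intro g h
    unfold zz
    rw [congr_sign, congr_sign]
    rfl
  ext g h
  rw [st_apply, st_apply, h1]

theorem congr_ΓF {F : Finset α} {F' : Finset β} (hF : ∀ x, x ∈ F ↔ ε x ∈ F') :
    (S.congr ε).ΓF F' = S.ΓF F := by
  ext g
  rw [mem_ΓF, mem_ΓF]
  constructor
  · intro h x hx
    have h1 := h (ε x) (fun h' => hx ((hF x).2 h'))
    rw [congr_π_apply, Equiv.symm_apply_apply] at h1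
    exact ε.injective h1
  · intro h x hx
    rw [congr_π_apply, h (ε.symm x), Equiv.apply_symm_apply]
    intro h'
    rw [hF, Equiv.apply_symm_apply] at h'
    exact hx h'

variable [Fintype Γ] [DecidableEq Γ] {k : Type*} [Field k]

theorem congr_ΓA : (S.congr ε).ΓA = S.ΓA := by
  ext g
  rw [mem_ΓA, mem_ΓA, congr_sign]

theorem congr_SC {F : Finset α} {F' : Finset β} (hF : ∀ x, x ∈ F ↔ ε x ∈ F') :
    (S.congr ε).SC k F' = S.SC k F := by
  ext x
  rw [mem_SC, mem_SC, S.congr_ΓF ε hF]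
  have h1 : (S.congr ε).sc k = S.sc k := by
    unfold sc
    rw [congr_st]
  rw [h1]
  rfl

theorem congr_ZE {F : Finset α} {F' : Finset β} (hF : ∀ x, x ∈ F ↔ ε x ∈ F') :
    (S.congr ε).ZE k F' = S.ZE k F := by
  unfold ZE
  rw [S.congr_ΓF ε hF, congr_ΓA]

/-- **The dimension bound**, arbitrary finite sets. -/
theorem finrank_bEC_le (h2 : (2 : k) ≠ 0) (F : Finset α) {E b : MonoidAlgebra k Γ}
    {J : Submodule k (MonoidAlgebra k Γ)}
    (hE : E ∈ S.ZE k F) (hEE : E * E = E) (hEn : gp k S.z * E = - E)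
    (hJc : ∀ j ∈ J, ∀ x, j * x = x * j)
    (hb : b ∈ Fix (cj k Γ) ⊤) (hbb : b * b = b)
    (hJ : ∀ z ∈ Fix (cj k Γ) ⊤, z ∈ SubAlg k S.ΓA → ∃ c : k, b * z - c • b ∈ J)
    {g : ℕ} (hg : J ^ g = ⊥) :
    finrank k (Submodule.map (LinearMap.mulLeft k (b * E)) (S.SC k F)) ≤
    2 * (Fᶜ).card.factorial * (finrank k (Submodule.map (LinearMap.mulLeft k E)
      (Subalgebra.toSubmodule (S.ZE k F))) * (2 * (g * (Fᶜ).card)) ^ (Fᶜ).card) := by
  classical
  obtain ⟨l, m, hm, ε, hε⟩ : ∃ l m : ℕ, m = (Fᶜ).card ∧ ∃ ε : α ≃ Fin (l + m),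
      ∀ x, x ∈ F ↔ ε x ∈ Fl (l + m) l := ⟨_, _, rfl, exists_enum F⟩
  rw [← hm]
  have key := (S.congr ε).finrank_le (l := l) (m := m) h2 rfl (E := E) (b := b) (J := J)
    (by rw [S.congr_ZE ε hε]; exact hE) hEE hEn hJc hb hbb
    (by rw [S.congr_ΓA ε]; exact hJ) hg
  rw [S.congr_ZE ε hε, S.congr_SC ε hε] at key
  refine key.trans ?_
  apply Nat.mul_le_mul_right
  have := (S.congr ε).card_fixers_le l
  rwa [card_fixers] at this

end SpinStr

end Vale.Agent.P180.R2.H589
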