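import Vale.Agent.P180.R2.H589.Spin.Cent

set_option linter.unusedSectionVars false

/-!
P180: generation of the super-centralizer of the twisted group algebra of `Sym(F)`.
-/

namespace Vale.Agent.P180.R2.H589

open Equiv Finset
open Vale.Agent.P180

namespace SpinStr

variable {α : Type} [Fintype α] [DecidableEq α] {Γ : Type} [Group Γ] [Fintype Γ] [DecidableEq Γ]
  (S : SpinStr α Γ) {k : Type*} [Field k]

theorem π_surj : Function.Surjective S.π := by
  intro g
  induction g using Perm.swap_induction_on with
  | one => exact ⟨1, map_one _⟩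
  | swap_mul f x y hxy ih =>
    obtain ⟨h, rfl⟩ := ih
    exact ⟨S.τ x y * h, by rw [map_mul, S.π_τ hxy]⟩

theorem Good.not_both {F : Finset α} {g g' : Γ} (hg : S.Good F g) (h1 : S.Cj F g g') :
    ¬ S.Cj F g (S.z * g') := by
  intro h2
  apply hg
  have h3 := Cj.z_mul S (Cj.symm S h1)
  exact Cj.trans S h2 h3

/-- The signed class sum. -/
noncomputable def cls (k : Type*) [Field k] (F : Finset α) (g : Γ) : MonoidAlgebra k Γ := by
  classical
  exact ∑ x : Γ, MonoidAlgebra.single x
    (if S.Cj F g x then (1 : k) else if S.Cj F g (S.z * x) then -1 else 0)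

open scoped Classical in
theorem cls_coeff (F : Finset α) (g x : Γ) : (S.cls k F g).coeff x =
    if S.Cj F g x then (1 : k) else if S.Cj F g (S.z * x) then -1 else 0 := by
  unfold cls
  rw [MonoidAlgebra.coeff_sum, Finsupp.finsetSum_apply]
  simp only [MonoidAlgebra.coeff_single, Finsupp.single_apply]
  rw [sum_ite_eq' _ x]
  simp

theorem cls_neg {F : Finset α} {g : Γ} (hg : S.Good F g) : S.Neg (S.cls k F g) := by
  classical
  intro x
  rw [cls_coeff, cls_coeff]
  have hzz : S.z * (S.z * x) = x := by rw [← mul_assoc, S.z_sq, one_mul]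
  rw [hzz]
  by_cases h1 : S.Cj F g x
  · rw [if_neg (Good.not_both S hg h1), if_pos h1, if_pos h1]
  · by_cases h2 : S.Cj F g (S.z * x)
    · rw [if_pos h2, if_neg h1, if_pos h2, neg_neg]
    · rw [if_neg h2, if_neg h1, if_neg h1, if_neg h2, neg_zero]

theorem cls_mem_SubAlg {F : Finset α} {g : Γ} (hg : g ∈ S.ΓF F) :
    S.cls k F g ∈ SubAlg k (S.ΓF F) := by
  classical
  intro x hx
  rw [cls_coeff] at hx
  have key : ∀ y, S.Cj F g y → y ∈ S.ΓF F := by
    rintro _ ⟨h, hh, rfl⟩
    rw [mem_ΓF, S.π_st]
    exact (IsF.mul (IsF.mul hh hg) (IsF.inv hh))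
  by_cases h1 : S.Cj F g x
  · exact key x h1
  · rw [if_neg h1] at hx
    by_cases h2 : S.Cj F g (S.z * x)
    · have h3 := key _ h2
      rw [mem_ΓF, map_mul, S.π_z, one_mul] at h3
      exact h3
    · rw [if_neg h2] at hx
      exact absurd rfl hx

theorem cls_mem_Fix (F : Finset α) (g : Γ) : S.cls k F g ∈ Fix (S.sc k) (S.ΓF F) := by
  classical
  rw [mem_Fix_sc_iff]
  intro h hh x
  rw [cls_coeff, cls_coeff]
  have e1 : S.Cj F g (S.st h x) ↔ S.Cj F g x :=
    ⟨fun h' => Cj.trans S h' (Cj.symm S ⟨h, hh, rfl⟩), fun h' => Cj.trans S h' ⟨h, hh, rfl⟩⟩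
  have e2 : S.Cj F g (S.z * S.st h x) ↔ S.Cj F g (S.z * x) := by
    have e3 : S.z * S.st h x = S.st h (S.z * x) := by rw [map_mul, S.st_z]
    rw [e3]
    exact ⟨fun h' => Cj.trans S h' (Cj.symm S ⟨h, hh, rfl⟩), fun h' => Cj.trans S h' ⟨h, hh, rfl⟩⟩
  simp only [e1, e2]

/-- The element with the top part of the class of `g`. -/
theorem exists_top (F : Finset α) : ∀ (d : ℕ) (g : Γ), S.Good F g → dg F (S.π g) = d →
    ∃ M ∈ S.Cn k F, S.Neg M ∧ ∀ g', (M.coeff g' ≠ 0 → dg F (S.π g') ≤ d) ∧
      (dg F (S.π g') = d → (S.Cj F g g' → M.coeff g' = 1) ∧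
        (¬ S.Cj F g g' → ¬ S.Cj F g (S.z * g') → M.coeff g' = 0)) := by
  classical
  intro d
  induction d using Nat.strong_induction_on with
  | _ d ih =>
    intro g hgood hg
    by_cases hT : ∃ t, t ∉ F ∧ S.π g t ∈ F
    · obtain ⟨t, ht, hgt⟩ := hT
      have htn : ∀ f ∈ F, t ≠ f := fun f hf h => ht (h ▸ hf)
      have h1 := dg_remove ht (S.π g) hgt
      rw [← S.π_mul_τ_inv (htn _ hgt)] at h1
      obtain ⟨M, hM, hMn, hMc⟩ := ih (dg F (S.π (g * (S.τ t (S.π g t))⁻¹))) (by omega)
        (g * (S.τ t (S.π g t))⁻¹) (S.good_remove ht hgt hgood) rfl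
      refine ⟨M * S.Y k F t, (S.Cn k F).mul_mem hM
        (Algebra.subset_adjoin (Or.inl (Or.inr ⟨t, ht, rfl⟩))), Neg.mul_right S hMn _,
        fun g' => ⟨?_, ?_⟩⟩
      · intro hne
        rw [mul_Y_coeff] at hne
        obtain ⟨f, hfF, hf⟩ := exists_ne_zero_of_sum_ne_zero hne
        have h2 := (hMc _).1 hf
        rw [S.π_mul_τ_inv (htn f hfF) g'] at h2
        have h3 := dg_mul_swap_le ht (S.π g' * swap t f) (f := f)
        rw [mul_assoc, swap_mul_self, mul_one] at h3
        omega
      · intro hd
        have key : (M * S.Y k F t).coeff g' =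
            if S.π g' t ∈ F then M.coeff (g' * (S.τ t (S.π g' t))⁻¹) else 0 := by
          rw [mul_Y_coeff]
          split_ifs with hF
          · rw [sum_eq_single_of_mem (S.π g' t) hF]
            intro f hfF hf
            by_contra hne
            have h2 := (hMc _).1 hne
            rw [S.π_mul_τ_inv (htn f hfF) g'] at h2
            exact hf (eq_of_dg_mul_swap_lt ht (S.π g') (by omega)).symm
          · apply sum_eq_zero
            intro f hfF
            by_contra hne
            have h2 := (hMc _).1 hne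
            rw [S.π_mul_τ_inv (htn f hfF) g'] at h2
            have h3 := eq_of_dg_mul_swap_lt ht (S.π g') (f := f) (by omega)
            rw [h3] at hF
            exact hF hfF
        constructor
        · rintro ⟨h, hh, rfl⟩
          have hht : S.π h t = t := hh t ht
          have hht' : (S.π h)⁻¹ t = t := (IsF.inv hh) t ht
          have e1 : S.π (S.st h g) t = S.π h (S.π g t) := by
            rw [S.π_st, Perm.mul_apply, Perm.mul_apply, hht']
          rw [key, if_pos (by rw [e1]; exact (IsF.mem hh).2 hgt), e1]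
          have e2 : S.st h g * (S.τ t (S.π h (S.π g t)))⁻¹ = S.st h (g * (S.τ t (S.π g t))⁻¹) := by
            rw [map_mul, map_inv, S.st_τ h (htn _ hgt), hht]
          rw [e2]
          have h4 := hMc (S.st h (g * (S.τ t (S.π g t))⁻¹))
          exact (h4.2 (Cj.dg S ⟨h, hh, rfl⟩)).1 ⟨h, hh, rfl⟩
        · intro hn hn'
          rw [key]
          split_ifs with hF
          · have h2 := dg_remove ht (S.π g') hF
            rw [← S.π_mul_τ_inv (htn _ hF)] at h2
            have h4 := hMc (g' * (S.τ t (S.π g' t))⁻¹)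
            refine (h4.2 (by omega)).2 ?_ ?_
            · intro hc
              exact hn (S.cj_of_cj_mul ht hgt hF hc)
            · intro hc
              apply hn'
              have h5 : S.π (S.z * g') t = S.π g' t := by rw [map_mul, S.π_z, one_mul]
              apply S.cj_of_cj_mul ht hgt (by rwa [h5])
              rwa [h5, mul_assoc]
          · rfl
    · -- `g` preserves `F`
      push Not at hT
      have hpres : ∀ x, x ∈ F → S.π g x ∈ F := by
        intro x hx
        by_contra hc
        have himg : (Fᶜ).image (S.π g) = Fᶜ := by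
          apply eq_of_subset_of_card_le
          · intro y hy
            rw [mem_image] at hy
            obtain ⟨t, ht, rfl⟩ := hy
            rw [mem_compl] at ht ⊢
            exact hT t ht
          · rw [card_image_of_injective _ (S.π g).injective]
        have h1 : S.π g x ∈ (Fᶜ).image (S.π g) := by rw [himg, mem_compl]; exact hc
        rw [mem_image] at h1
        obtain ⟨t, ht, he⟩ := h1
        rw [(S.π g).injective he, mem_compl] at ht
        exact ht hx
      have hiff : ∀ x, S.π g x ∈ F ↔ x ∈ F := fun x =>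
        ⟨fun h => by by_contra hc; exact hT x hc h, hpres x⟩
      set h0 : Perm α := Perm.ofSubtype ((S.π g).subtypePerm (p := fun x => x ∈ F) hiff) with hh0
      have hF : ∀ x ∈ F, h0 x = S.π g x := by
        intro x hx
        rw [hh0, Perm.ofSubtype_apply_of_mem _ hx]
        rfl
      have hhF0 : IsF F h0 := by
        intro x hx
        rw [hh0, Perm.ofSubtype_apply_of_not_mem _ hx]
      obtain ⟨h, hh⟩ := S.π_surj h0
      have hhF : h ∈ S.ΓF F := by rw [mem_ΓF, hh]; exact hhF0
      set σ : Γ := h⁻¹ * g with hσ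
      have hσF : ∀ x ∈ F, S.π σ x = x := by
        intro x hx
        rw [hσ, map_mul, map_inv, hh, Perm.mul_apply, Perm.inv_eq_iff_eq, hF x hx]
      have hcomm : ∀ h' ∈ S.ΓF F, S.st h' σ = σ := S.st_of_disjoint hσF
      have hg' : g = h * σ := by rw [hσ]; group
      have hCj : ∀ x, S.Cj F h (x * σ⁻¹) ↔ S.Cj F g x := by
        intro x
        constructor
        · rintro ⟨h', hh', he⟩
          refine ⟨h', hh', ?_⟩
          rw [hg', map_mul, hcomm h' hh', ← he, inv_mul_cancel_right]
        · rintro ⟨h', hh', rfl⟩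
          refine ⟨h', hh', ?_⟩
          rw [hg', map_mul, hcomm h' hh', mul_inv_cancel_right]
      have hgoodh : S.Good F h := by
        intro hc
        apply hgood
        rw [← hCj, mul_assoc]
        have : g * σ⁻¹ = h := by rw [hg', mul_inv_cancel_right]
        rwa [this]
      refine ⟨S.cls k F h * MonoidAlgebra.single σ 1, (S.Cn k F).mul_mem
        (Algebra.subset_adjoin (Or.inl (Or.inl ⟨S.cls_neg hgoodh, S.cls_mem_SubAlg hhF,
          S.cls_mem_Fix F h⟩)))
        (Algebra.subset_adjoin (Or.inr ⟨σ, hσF, rfl⟩)),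
        Neg.mul_right S (S.cls_neg hgoodh) _, fun g' => ?_⟩
      have key : (S.cls k F h * MonoidAlgebra.single σ 1).coeff g' =
          if S.Cj F g g' then (1 : k) else if S.Cj F g (S.z * g') then -1 else 0 := by
        rw [coeff_mul_single, cls_coeff, ← mul_assoc]
        simp only [hCj]
      rw [key]
      refine ⟨?_, fun _ => ⟨fun hc => if_pos hc, fun hc hc' => by rw [if_neg hc, if_neg hc']⟩⟩
      intro hne
      by_cases hc : S.Cj F g g'
      · rw [Cj.dg S hc, hg]
      · rw [if_neg hc] at hne
        by_cases hc' : S.Cj F g (S.z * g')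
        · rw [← S.dg_z_mul g', Cj.dg S hc', hg]
        · rw [if_neg hc'] at hne
          exact absurd rfl hne

/-- The generators belong to the super-centralizer. -/
theorem Cn_le (F : Finset α) : S.Cn k F ≤ Fix (S.sc k) (S.ΓF F) := by
  apply Algebra.adjoin_le
  rintro a ((⟨-, -, ha⟩ | ⟨t, ht, rfl⟩) | ⟨σ, hσ, rfl⟩)
  · exact ha
  · intro h hh
    have hht : S.π h t = t := hh t ht
    unfold Y
    rw [map_sum]
    apply sum_bij (fun f _ => S.π h f)
    · intro f hf; exact (IsF.mem hh).2 hf
    · intro a _ b _ hab; exact (S.π h).injective hab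
    · intro f hf
      exact ⟨(S.π h)⁻¹ f, (IsF.mem (IsF.inv hh)).2 hf, perm_apply_inv _ _⟩
    · intro f hf
      have htf : t ≠ f := fun h => ht (h ▸ hf)
      rw [sc_single, S.st_τ h htf, hht]
  · intro h hh
    rw [sc_single, S.st_of_disjoint hσ h hh]

/-- **The super-centralizer of the twisted group algebra of `Sym(F)`** is generated by the even
super-centre, the sums of the lifts of transpositions and the group elements over `Sym(α - F)`. -/
theorem mem_Cn_of_fix (h2 : (2 : k) ≠ 0) {F : Finset α} {x : MonoidAlgebra k Γ}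
    (hx : x ∈ Fix (S.sc k) (S.ΓF F)) (hxn : S.Neg x) : x ∈ S.Cn k F := by
  classical
  have hcoe : ∀ x : MonoidAlgebra k Γ, x ∈ Fix (S.sc k) (S.ΓF F) → ∀ g g', S.Cj F g g' →
      x.coeff g' = x.coeff g := by
    rintro x hx g _ ⟨h, hh, rfl⟩
    exact (S.mem_Fix_sc_iff.1 hx) h hh g
  have hgood : ∀ x : MonoidAlgebra k Γ, x ∈ Fix (S.sc k) (S.ΓF F) → S.Neg x → ∀ g,
      x.coeff g ≠ 0 → S.Good F g := by
    intro x hx hxn g hg hc
    have h3 := hcoe x hx _ _ hc
    rw [hxn] at h3
    apply hg
    have h4 : (2 : k) * x.coeff g = 0 := by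
      rw [two_mul]
      nth_rewrite 1 [← h3]
      rw [neg_add_cancel]
    exact (mul_eq_zero.1 h4).resolve_left h2
  -- induction on the top degree and the number of elements in it
  suffices H : ∀ (d c : ℕ) (x : MonoidAlgebra k Γ), x ∈ Fix (S.sc k) (S.ΓF F) → S.Neg x →
      (∀ g, x.coeff g ≠ 0 → dg F (S.π g) ≤ d) →
      ((univ : Finset Γ).filter (fun g => dg F (S.π g) = d ∧ x.coeff g ≠ 0)).card ≤ c →
      x ∈ S.Cn k F by
    refine H F.card _ x hx hxn (fun g _ => card_le_card (filter_subset _ _)) le_rfl
  intro d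
  induction d using Nat.strong_induction_on with
  | _ d ihd =>
  -- no element of degree `d`
  have h0 : ∀ x : MonoidAlgebra k Γ, x ∈ Fix (S.sc k) (S.ΓF F) → S.Neg x →
      (∀ g, x.coeff g ≠ 0 → dg F (S.π g) ≤ d) →
      (univ : Finset Γ).filter (fun g => dg F (S.π g) = d ∧ x.coeff g ≠ 0) = ∅ →
      x ∈ S.Cn k F := by
    intro x hx hxn h1 h2
    rw [filter_eq_empty_iff] at h2
    rcases Nat.eq_zero_or_pos d with hd | hd
    · have : x = 0 := by
        ext g
        by_contra hne
        exact h2 (mem_univ g) ⟨by have := h1 g hne; omega, hne⟩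
      rw [this]
      exact (S.Cn k F).zero_mem
    · refine ihd (d - 1) (by omega) _ x hx hxn (fun g hg => ?_) le_rfl
      have h3 := h1 g hg
      have h4 : dg F (S.π g) ≠ d := fun h => h2 (mem_univ g) ⟨h, hg⟩
      omega
  intro c
  induction c with
  | zero =>
    intro x hx hxn h1 h2
    exact h0 x hx hxn h1 (card_eq_zero.1 (Nat.le_zero.1 h2))
  | succ c ihc =>
    intro x hx hxn h1 hcard
    rcases eq_empty_or_nonempty
      ((univ : Finset Γ).filter (fun g => dg F (S.π g) = d ∧ x.coeff g ≠ 0)) with he | ⟨g, hg⟩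
    · exact h0 x hx hxn h1 he
    · rw [mem_filter] at hg
      obtain ⟨-, hgd, hgx⟩ := hg
      obtain ⟨M, hM, hMn, hMc⟩ := S.exists_top (k := k) F d g (hgood x hx hxn g hgx) hgd
      have hMi : M ∈ Fix (S.sc k) (S.ΓF F) := S.Cn_le F hM
      have hx' : x - x.coeff g • M ∈ Fix (S.sc k) (S.ΓF F) :=
        Subalgebra.sub_mem _ hx (Subalgebra.smul_mem _ hMi _)
      have hxn' : S.Neg (x - x.coeff g • M) := Neg.sub S hxn (Neg.smul S _ hMn)
      have hc : ∀ g', (x - x.coeff g • M).coeff g' = x.coeff g' - x.coeff g * M.coeff g' := by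
        intro g'
        simp
      have hmem : x - x.coeff g • M ∈ S.Cn k F := by
        apply ihc _ hx' hxn'
        · intro g' hne
          rw [hc] at hne
          by_cases h3 : x.coeff g' = 0
          · rw [h3, zero_sub] at hne
            apply (hMc g').1
            intro h4
            rw [h4, mul_zero, neg_zero] at hne
            exact hne rfl
          · exact h1 g' h3
        · have hlt : ((univ : Finset Γ).filter
              (fun g' => dg F (S.π g') = d ∧ (x - x.coeff g • M).coeff g' ≠ 0)) ⊂
              ((univ : Finset Γ).filter (fun g' => dg F (S.π g') = d ∧ x.coeff g' ≠ 0)) := by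
            rw [ssubset_iff_of_subset]
            · refine ⟨g, by simp [hgd, hgx], ?_⟩
              rw [mem_filter, not_and]
              intro _ h5
              apply h5.2
              rw [hc, ((hMc g).2 hgd).1 (Cj.refl S F g)]
              ring
            · intro g' hg'
              rw [mem_filter] at hg' ⊢
              refine ⟨mem_univ _, hg'.2.1, ?_⟩
              intro h5
              apply hg'.2.2
              rw [hc, h5, zero_sub, neg_eq_zero]
              by_cases h6 : S.Cj F g g'
              · rw [hcoe x hx _ _ h6] at h5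
                exact absurd h5 hgx
              · by_cases h7 : S.Cj F g (S.z * g')
                · have h8 := hcoe x hx _ _ h7
                  rw [hxn g', h5, neg_zero] at h8
                  exact absurd h8.symm hgx
                · rw [((hMc g').2 hg'.2.1).2 h6 h7, mul_zero]
          have := card_lt_card hlt
          omega
      have : x = (x - x.coeff g • M) + x.coeff g • M := by abel
      rw [this]
      exact (S.Cn k F).add_mem hmem ((S.Cn k F).smul_mem hM _)

end SpinStr

end Vale.Agent.P180.R2.H589
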